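import Vale.Agent.P091.T8.H655.Use
import Vale.Agent.P091.H413.Sys5

/-!
# P091, row T8 (helper655): use of T8Core (letters seen at departure), exits
-/

set_option autoImplicit false
set_option linter.unusedSectionVars false

open Finset Real
open Vale.Agent.P091.H413 Vale.Agent.P091.H413.ESys

noncomputable section

namespace Vale.Agent.P091.T8.H655

variable {K : Type} [Fintype K]

/-! ## functional S -/

theorem S_zero' (n : ℕ) (v : Node) : S n (fun _ => (0:ℝ)) v = 0 := by
  have := S_smul n 0 (fun _ => 0) v
  simpa using this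

theorem S_children (k : ℕ) (ℓ : Node → ℝ) (v : Node) :
    S k (fun w => (ℓ (true :: w) + ℓ (false :: w)) / 2) v = S (k + 1) ℓ v - ℓ v := by
  induction k generalizing v with
  | zero => simp [S]
  | succ k ih =>
    have e1 : S (k + 1) (fun w => (ℓ (true :: w) + ℓ (false :: w)) / 2) v
        = (ℓ (true :: v) + ℓ (false :: v)) / 2
          + (S k (fun w => (ℓ (true :: w) + ℓ (false :: w)) / 2) (true :: v)
            + S k (fun w => (ℓ (true :: w) + ℓ (false :: w)) / 2) (false :: v)) / 2 := rfl
    have e2 : S (k + 1 + 1) ℓ v = ℓ v + (S (k + 1) ℓ (true :: v) + S (k + 1) ℓ (false :: v)) / 2 :=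
      rfl
    rw [e1, e2, ih, ih]; ring

theorem S_succ_last (k : ℕ) (f : Node → ℝ) (v : Node) : S (k + 1) f v = S k f v + Lf k f v := by
  induction k generalizing v with
  | zero => simp [S, Lf]
  | succ k ih =>
    have e1 : S (k + 1 + 1) f v = f v + (S (k + 1) f (true :: v) + S (k + 1) f (false :: v)) / 2 :=
      rfl
    have e2 : S (k + 1) f v = f v + (S k f (true :: v) + S k f (false :: v)) / 2 := rfl
    have e3 : Lf (k + 1) f v = (Lf k f (true :: v) + Lf k f (false :: v)) / 2 := rfl
    rw [e1, e2, e3, ih, ih]; ring

theorem S_shift (k : ℕ) (f : Node → ℝ) (z v : Node) :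
    S k (fun w => f (w ++ z)) v = S k f (v ++ z) := by
  induction k generalizing v with
  | zero => rfl
  | succ k ih =>
    have e1 : S (k + 1) (fun w => f (w ++ z)) v = f (v ++ z)
        + (S k (fun w => f (w ++ z)) (true :: v) + S k (fun w => f (w ++ z)) (false :: v)) / 2 := rfl
    have e2 : S (k + 1) f (v ++ z) = f (v ++ z)
        + (S k f (true :: (v ++ z)) + S k f (false :: (v ++ z))) / 2 := rfl
    rw [e1, e2, ih, ih]; rfl

/-! ## the subtree system -/

/-- the system seen from the node `z` -/
def shift (s : ESys K Unit) (z : Node) : ESys K Unit where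
  α := fun k v => s.α k (v ++ z)
  α' := fun k v => s.α' k (v ++ z)
  A := fun k q v => s.A k q (v ++ z)
  A' := fun k q v => s.A' k q (v ++ z)
  G := fun q v => s.G q (v ++ z)
  G' := fun q v => s.G' q (v ++ z)
  B := fun k q v => s.B k q (v ++ z)
  B' := fun k q v => s.B' k q (v ++ z)

theorem shift_ok {s : ESys K Unit} {n : ℕ} (hs : s.Ok n) {z : Node} {k : ℕ}
    (hz : k + z.length ≤ n) : (shift s z).Ok k where
  α0 := fun k v hv => hs.α0 k _ (by rw [List.length_append]; omega)
  α0' := fun k v hv => hs.α0' k _ (by rw [List.length_append]; omega)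
  αsum := fun v hv => hs.αsum _ (by rw [List.length_append]; omega)
  αsum' := fun v hv => hs.αsum' _ (by rw [List.length_append]; omega)
  αm := fun k v hv => hs.αm k _ (by rw [List.length_append]; omega)
  A1 := fun k q v hv => hs.A1 k q _ (by rw [List.length_append]; omega)
  A1' := fun k q v hv => hs.A1' k q _ (by rw [List.length_append]; omega)
  Am := fun k q v hv => hs.Am k q _ (by rw [List.length_append]; omega)
  G0 := fun q v hv => hs.G0 q _ (by rw [List.length_append]; omega)
  G0' := fun q v hv => hs.G0' q _ (by rw [List.length_append]; omega)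
  Gsum := fun v hv => hs.Gsum _ (by rw [List.length_append]; omega)
  Gsum' := fun v hv => hs.Gsum' _ (by rw [List.length_append]; omega)
  Gm := fun q v hv => hs.Gm q _ (by rw [List.length_append]; omega)
  B1 := fun k q v hv => hs.B1 k q _ (by rw [List.length_append]; omega)
  B1' := fun k q v hv => hs.B1' k q _ (by rw [List.length_append]; omega)
  Bm := fun k q v hv => hs.Bm k q _ (by rw [List.length_append]; omega)
  Gr := fun q v hv => hs.Gr q _ (by rw [List.length_append]; omega)
  xr := fun k v hv => hs.xr k _ (by rw [List.length_append]; omega)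

theorem shift_plain {s : ESys K Unit} {n : ℕ} (hp : Plain s n) {z : Node} {k : ℕ}
    (hz : k + z.length ≤ n) : Plain (shift s z) k where
  A := fun k v hv => hp.A k _ (by rw [List.length_append]; omega)
  A' := fun k v hv => hp.A' k _ (by rw [List.length_append]; omega)

/-- total letter energy of a subtree -/
theorem S_e4_sub {s : ESys K Unit} {n : ℕ} (hs : s.Ok n) (hp : Plain s n) {z : Node} {k : ℕ}
    (hz : k + z.length ≤ n) {h m : ℝ} (hh : 0 ≤ h) (h1 : S k s.e1 z ≤ 2 * h)
    (hm : S k s.lα z ≤ m) : S k s.e4 z ≤ 32 + 16 * m + 64 * h := by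
  have key := S_e4_total (shift_ok hs hz) (shift_plain hp hz) (h := h) (m := m) hh
    (by
      have := S_shift k s.e1 z []
      have e : (fun w => s.e1 (w ++ z)) = (shift s z).e1 := rfl
      rw [← e, this]; exact h1)
    (by
      have := S_shift k s.lα z []
      have e : (fun w => s.lα (w ++ z)) = (shift s z).lα := rfl
      rw [← e, this]; exact hm)
  have := S_shift k s.e4 z []
  have e : (fun w => s.e4 (w ++ z)) = (shift s z).e4 := rfl
  rw [← e, this] at key
  exact key

/-! ## exits -/

open Classical in
/-- sum over the nodes outside a prefix-closed set -/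
theorem S_exits {f : Node → ℝ} {T' : Node → Prop} {C : ℝ} (hC : 0 ≤ C) {n : ℕ}
    (hf0 : ∀ v, v.length < n → 0 ≤ f v)
    (hf : ∀ k (z : Node), k + z.length ≤ n → S k f z ≤ C) :
    S n (fun v => if T' v then 0 else f v) []
      ≤ C * S n (fun v => if ¬ T' v ∧ (∀ b u, v = b :: u → T' u) then 1 else 0) [] := by
  have key : ∀ k (v : Node), k + v.length ≤ n → (∀ b u, v = b :: u → T' u) →
      S k (fun v => if T' v then 0 else f v) v
        ≤ C * S k (fun v => if ¬ T' v ∧ (∀ b u, v = b :: u → T' u) then 1 else 0) v := by
    intro k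
    induction k with
    | zero => intro v _ _; simp [S]
    | succ k ih =>
      intro v hv hpar
      by_cases hT : T' v
      · have hch : ∀ b : Bool, ∀ b' u, b :: v = b' :: u → T' u := by
          intro b b' u e
          injection e with _ e2
          rw [← e2]; exact hT
        have h1 := ih (true :: v) (by simp only [List.length_cons]; omega) (hch true)
        have h2 := ih (false :: v) (by simp only [List.length_cons]; omega) (hch false)
        simp only [S]
        rw [if_pos hT, if_neg (fun h => h.1 hT)]
        simp only [zero_add]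
        linarith
      · have h1 : S (k + 1) (fun v => if T' v then 0 else f v) v ≤ S (k + 1) f v := by
          refine S_mono (k + 1) v fun w hw => ?_
          split_ifs
          · exact hf0 w (by omega)
          · exact le_rfl
        have h2 : (1:ℝ) ≤ S (k + 1)
            (fun v => if ¬ T' v ∧ (∀ b u, v = b :: u → T' u) then 1 else 0) v := by
          simp only [S]
          rw [if_pos ⟨hT, hpar⟩]
          have a1 := S_nonneg k (f := fun v => if ¬ T' v ∧ (∀ b u, v = b :: u → T' u)
            then (1:ℝ) else 0) (true :: v) (fun w _ => by split_ifs <;> norm_num)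
          have a2 := S_nonneg k (f := fun v => if ¬ T' v ∧ (∀ b u, v = b :: u → T' u)
            then (1:ℝ) else 0) (false :: v) (fun w _ => by split_ifs <;> norm_num)
          linarith
        have h3 := hf (k + 1) v hv
        nlinarith
  exact key n [] (by simp) (fun b u e => by cases e)

/-! ## entered at departure -/

/-- the letter of `k` is `δ`-large at `v` (departure) -/
def SeenD (s : ESys K Unit) (δ : ℝ) (k : K) (v : Node) : Prop := δ < ‖s.B k () v‖

/-- `EntD k v = some w`: `w` is the first node above (or equal to) `v` where `k` is seen. -/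
def EntD (s : ESys K Unit) (δ : ℝ) (k : K) : Node → Option Node
  | [] => by classical exact if SeenD s δ k [] then some [] else none
  | b :: v => by
    classical
    exact match EntD s δ k v with
      | some w => some w
      | none => if SeenD s δ k (b :: v) then some (b :: v) else none

section ent
variable {s : ESys K Unit} {δ : ℝ} {k : K}

theorem EntD_cons_some {b : Bool} {v w : Node} (h : EntD s δ k v = some w) :
    EntD s δ k (b :: v) = some w := by
  simp only [EntD, h]

theorem EntD_cons_none {b : Bool} {v : Node} (h : EntD s δ k v = none) :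
    EntD s δ k (b :: v) = none ∨ EntD s δ k (b :: v) = some (b :: v) := by
  classical
  simp only [EntD, h]
  split_ifs
  · right; rfl
  · left; rfl

theorem EntD_seen : ∀ {v w : Node}, EntD s δ k v = some w → SeenD s δ k w ∧ w <:+ v
  | [], w, h => by
    classical
    unfold EntD at h
    by_cases hs : SeenD s δ k []
    · rw [if_pos hs] at h
      cases h
      exact ⟨hs, List.suffix_rfl⟩
    · rw [if_neg hs] at h; cases h
  | b :: v, w, h => by
    classical
    rcases he : EntD s δ k v with _ | w'
    · rcases EntD_cons_none (b := b) he with h' | h'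
      · rw [h'] at h; cases h
      · have hh := h
        rw [h'] at h
        cases h
        refine ⟨?_, List.suffix_rfl⟩
        simp only [EntD, he] at hh
        by_contra hn
        rw [if_neg hn] at hh; cases hh
    · rw [EntD_cons_some he] at h
      cases h
      obtain ⟨h1, h2⟩ := EntD_seen he
      exact ⟨h1, h2.trans (List.suffix_cons b v)⟩

theorem not_seenD_of_none {v : Node} (h : EntD s δ k v = none) : ¬ SeenD s δ k v := by
  classical
  intro hs
  cases v with
  | nil => unfold EntD at h; rw [if_pos hs] at h; cases h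
  | cons b v =>
    rcases he : EntD s δ k v with _ | w'
    · simp only [EntD, he] at h
      rw [if_pos hs] at h; cases h
    · rw [EntD_cons_some he] at h; cases h

end ent

section plain
variable {s : ESys K Unit} {n : ℕ} (hs : s.Ok n) (hp : Plain s n)
include hs hp

/-- **low part**, node condition -/
theorem S_low2 {h m δ : ℝ} (hδ : 0 ≤ δ) (hh : 0 ≤ h) (hm0 : 0 ≤ m) (h1 : S n s.e1 [] ≤ 2 * h)
    (hm : S n s.lα [] ≤ m) (good : K → Node → Prop) [∀ k v, Decidable (good k v)]
    (hg : ∀ k v, v.length < n → good k v → ‖s.B k () v‖ + ‖s.dB k () v‖ ≤ δ) :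
    S n (fun v => ∑ k, if good k v then s.α k v * ‖s.dB k () v‖ ^ 2 else 0) []
      ≤ δ * (40 + 20 * m + 66 * h) := by
  rcases Nat.eq_zero_or_pos n with hn | hn
  · subst hn
    simp only [S]; positivity
  have hg' : ∀ k v, v.length < n → good k v →
      ‖s.z k v‖ + s.α k v * ‖s.τ k v‖ ≤ δ * s.α k v := by
    intro k v hv hgk
    have a0 := hs.α0 k v hv
    rw [z_eq' hs hp hv, norm_mul, Complex.norm_real, norm_of_nonneg a0]
    have h2 : s.α k v * ‖s.τ k v‖ = s.α k v * ‖s.dB k () v‖ := by
      rcases eq_or_ne (s.α k v) 0 with h | h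
      · rw [h]; simp
      · rw [τ_eq hs hp hv k h]
    rw [h2, ← mul_add, mul_comm δ]
    exact mul_le_mul_of_nonneg_left (hg k v hv hgk) a0
  have key := S_tele2 n
    (f := fun v => ∑ k, if good k v then s.α k v * ‖s.dB k () v‖ ^ 2 else 0)
    (Φ := s.Φ4 δ) (Φ' := s.Φ4' δ) (c := 4 * δ)
    (g := fun v => 2 * δ * (∑ k, |s.dα k v| * ‖s.τ k v‖))
    (ℓ := fun v => 2 * δ * s.lG v + 2 * (2 * δ) * s.lα v) (by positivity) []
    (by
      intro w hw
      have hw' := lt_of_lt hs w hw
      have e := e4_node2 hs hw' hδ good (fun k => hg' k w hw')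
      have hκ : ∑ k, ‖s.κ k w‖ = 0 := sum_eq_zero fun k _ => by
        unfold ESys.κ; simp [rA_zero hs hp hw' k]
      have hρ : ∑ k, ‖s.τ k w‖ * ‖s.ρ k w‖ = 0 := sum_eq_zero fun k _ => by
        unfold ESys.ρ; simp [rA_zero hs hp hw' k]
      rw [hκ, hρ] at e
      have e4e : s.e4 w = (∑ k, if good k w then s.α k w * ‖s.dB k () w‖ ^ 2 else 0)
          + ∑ k, if good k w then 0 else s.α k w * ‖s.τ k w‖ ^ 2 := by
        unfold ESys.e4
        rw [← sum_add_distrib]
        refine sum_congr rfl fun k _ => ?_
        split_ifs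
        · rw [α_τ hs hp hw']; ring
        · ring
      rw [e4e] at e
      linarith)
    (fun w _ hw => Φ4_loss hs (lt_of_lt hs w hw) hδ)
    (fun w hw => by
      have := lG_nonneg hs (lt_of_lt hs w hw); have := lα_nonneg s w; positivity)
    (Φ4_nonneg hs (by simpa using hn) hδ)
    (fun w hw => Φ4'_le hs hδ (by simpa using hw))
  rw [S_loss, S_smul] at key
  have h3 := S_dατ hs
  have h6 := S_lG hs
  have h7 := S_e4_total hs hp hh h1 hm
  have h8 : √(S n s.e1 []) * √(S n s.e4 []) ≤ (2 * h + (32 + 16 * m + 64 * h)) / 2 := by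
    have a1 := Real.sq_sqrt (S_e1_nonneg hs)
    have a2 := Real.sq_sqrt (S_e4_nonneg hs)
    nlinarith [sq_nonneg (√(S n s.e1 []) - √(S n s.e4 []))]
  have i1 : 2 * δ * S n s.lG [] ≤ 2 * δ * 2 := by gcongr
  have i2 : 2 * (2 * δ) * S n s.lα [] ≤ 2 * (2 * δ) * m := by gcongr
  have i3 : 2 * δ * S n (fun v => ∑ k, |s.dα k v| * ‖s.τ k v‖) []
      ≤ 2 * δ * ((2 * h + (32 + 16 * m + 64 * h)) / 2) :=
    mul_le_mul_of_nonneg_left (h3.trans h8) (by positivity)
  linarith

open Classical in
/-- **jumps**: classes which are not entered and jump by more than `4 δ` -/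
theorem S_jump {m δ : ℝ} (hδ : 0 < δ) (hm0 : 0 ≤ m) (hm : S n s.lα [] ≤ m) :
    S n (fun v => ∑ k, if EntD s δ k v = none ∧ 4 * δ < ‖s.dB k () v‖ then s.α k v else 0) []
      ≤ 2 + 2 * m + 1 / δ := by
  rcases Nat.eq_zero_or_pos n with hn | hn
  · subst hn
    simp only [S]; positivity
  obtain ⟨n', rfl⟩ : ∃ n', n = n' + 1 := ⟨n - 1, by omega⟩
  set f : Node → ℝ := fun v => ∑ k, if EntD s δ k v = none ∧ 4 * δ < ‖s.dB k () v‖ then s.α k v else 0
    with hf
  set Φ : Node → ℝ := fun v => ∑ k, if EntD s δ k v = none then 0 else s.α k v with hΦ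
  set ℓ : Node → ℝ := fun v => 2 * s.lα v + s.lG v / (2 * δ) with hℓ
  have hfle : ∀ v : Node, v.length < n' + 1 → f v ≤ 1 := by
    intro v hv
    refine le_trans (sum_le_sum fun k _ => ?_) (hs.αsum v hv)
    split_ifs
    · exact le_rfl
    · exact hs.α0 k v hv
  have hΦ0 : ∀ v : Node, v.length < n' + 1 → 0 ≤ Φ v := by
    intro v hv
    refine sum_nonneg fun k _ => ?_
    split_ifs
    · exact le_rfl
    · exact hs.α0 k v hv
  have hΦ1 : ∀ v : Node, v.length < n' + 1 → Φ v ≤ 1 := by
    intro v hv
    refine le_trans (sum_le_sum fun k _ => ?_) (hs.αsum v hv)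
    split_ifs
    · exact hs.α0 k v hv
    · exact le_rfl
  -- one step
  have hstep : ∀ v : Node, v.length < n' →
      f v ≤ (Φ (true :: v) + Φ (false :: v)) / 2 - Φ v + (ℓ (true :: v) + ℓ (false :: v)) / 2 := by
    intro v hv
    have hv' : v.length < n' + 1 := by omega
    -- at a child
    have hc : ∀ c : Bool, ∑ k, (if EntD s δ k v = none ∧ 4 * δ < ‖s.dB k () v‖
        then s.α' k (c :: v) else 0) + ∑ k, (if EntD s δ k v = none then 0 else s.α' k (c :: v))
        ≤ Φ (c :: v) + ℓ (c :: v) := by
      intro c
      have hcl : (c :: v).length < n' + 1 := by simp only [List.length_cons]; omega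
      have hR : s.lG (c :: v) = s.G' () (c :: v) - s.G () (c :: v) := by
        unfold ESys.lG; simp
      by_cases hbig : 2 * δ ≤ s.lG (c :: v)
      · have h1 : (1:ℝ) ≤ s.lG (c :: v) / (2 * δ) := by
          rw [le_div_iff₀ (by positivity)]; linarith
        have h2 : ∑ k, (if EntD s δ k v = none ∧ 4 * δ < ‖s.dB k () v‖
            then s.α' k (c :: v) else 0) + ∑ k, (if EntD s δ k v = none then 0 else s.α' k (c :: v))
            ≤ 1 := by
          rw [← sum_add_distrib]
          refine le_trans (sum_le_sum fun k _ => ?_) (hs.αsum' (c :: v) hcl.le)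
          have a0 := hs.α0' k (c :: v) hcl.le
          by_cases he : EntD s δ k v = none
          · rw [if_pos he]
            split_ifs
            · simp
            · simpa using a0
          · rw [if_neg he, if_neg (fun h => he h.1)]; simp
        have h3 := hΦ0 (c :: v) hcl
        have h4 := lα_nonneg s (c :: v)
        simp only [hℓ]
        linarith
      · push Not at hbig
        have hℓ0 : 0 ≤ s.lG (c :: v) / (2 * δ) := div_nonneg (lG_nonneg hs hcl) (by positivity)
        have key : ∀ k, (if EntD s δ k v = none ∧ 4 * δ < ‖s.dB k () v‖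
            then s.α' k (c :: v) else 0) + (if EntD s δ k v = none then 0 else s.α' k (c :: v))
            ≤ (if EntD s δ k (c :: v) = none then 0 else s.α k (c :: v))
              + max (s.α' k (c :: v) - s.α k (c :: v)) 0 := by
          intro k
          have a0 := hs.α0' k (c :: v) hcl.le
          have a1 := hs.α0 k (c :: v) hcl
          have hmax1 : s.α' k (c :: v) - s.α k (c :: v)
              ≤ max (s.α' k (c :: v) - s.α k (c :: v)) 0 := le_max_left _ _
          have hmax0 : 0 ≤ max (s.α' k (c :: v) - s.α k (c :: v)) 0 := le_max_right _ _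
          by_cases he : EntD s δ k v = none
          · rw [if_pos he, add_zero]
            by_cases hj : 4 * δ < ‖s.dB k () v‖
            · rw [if_pos ⟨he, hj⟩]
              rcases hs.xr k (c :: v) hcl with h0 | ⟨_, _, hB⟩
              · rw [h0]
                have : 0 ≤ (if EntD s δ k (c :: v) = none then 0 else s.α k (c :: v)) := by
                  split_ifs
                  · exact le_rfl
                  · exact a1
                rw [h0] at hmax0
                linarith
              · -- the class is seen at the child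
                have hns := not_seenD_of_none he
                unfold SeenD at hns
                push Not at hns
                have hB' : 3 * δ < ‖s.B' k () (c :: v)‖ := by
                  have hb : s.B' k () (c :: v) = s.B k () v + s.dB k () v ∨
                      s.B' k () (c :: v) = s.B k () v - s.dB k () v := by
                    cases c
                    · right; exact B'_false hs hv' k ()
                    · left; exact B'_true hs hv' k ()
                  rcases hb with hb | hb
                  · rw [hb]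
                    have := norm_sub_le (s.B k () v + s.dB k () v) (s.B k () v)
                    rw [add_sub_cancel_left] at this
                    linarith
                  · rw [hb]
                    have := norm_sub_le (s.B k () v) (s.B k () v - s.dB k () v)
                    rw [sub_sub_cancel] at this
                    linarith
                have hBB := hB ()
                have : δ < ‖s.B k () (c :: v)‖ := by
                  have h1 := norm_sub_norm_le (s.B' k () (c :: v)) (s.B k () (c :: v))
                  rw [hR] at hbig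
                  linarith
                have hne : EntD s δ k (c :: v) ≠ none := fun h => not_seenD_of_none h this
                rw [if_neg hne]
                linarith
            · rw [if_neg (fun h => hj h.2)]
              have : 0 ≤ (if EntD s δ k (c :: v) = none then 0 else s.α k (c :: v)) := by
                split_ifs
                · exact le_rfl
                · exact a1
              linarith
          · rw [if_neg he, if_neg (fun h => he h.1), zero_add]
            obtain ⟨w, hw⟩ := Option.ne_none_iff_exists'.1 he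
            have hne : EntD s δ k (c :: v) ≠ none := by
              rw [EntD_cons_some hw]; simp
            rw [if_neg hne]
            linarith
        have h2 := sum_le_sum (s := univ) fun k _ => key k
        rw [sum_add_distrib, sum_add_distrib] at h2
        have h4 := lα_nonneg s (c :: v)
        have e : ∑ k, max (s.α' k (c :: v) - s.α k (c :: v)) 0 = s.lα (c :: v) := rfl
        rw [e] at h2
        simp only [hℓ]
        linarith
    have ht := hc true
    have hfa := hc false
    have e1 : f v = (∑ k, (if EntD s δ k v = none ∧ 4 * δ < ‖s.dB k () v‖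
        then s.α' k (true :: v) else 0) + ∑ k, (if EntD s δ k v = none ∧ 4 * δ < ‖s.dB k () v‖
        then s.α' k (false :: v) else 0)) / 2 := by
      simp only [hf]
      rw [← sum_add_distrib, sum_div]
      refine sum_congr rfl fun k _ => ?_
      split_ifs
      · exact hs.αm k v hv'
      · simp
    have e2 : Φ v = (∑ k, (if EntD s δ k v = none then 0 else s.α' k (true :: v))
        + ∑ k, (if EntD s δ k v = none then 0 else s.α' k (false :: v))) / 2 := by
      simp only [hΦ]
      rw [← sum_add_distrib, sum_div]
      refine sum_congr rfl fun k _ => ?_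
      split_ifs
      · simp
      · exact hs.αm k v hv'
    rw [e1, e2]
    linarith
  have h1 := S_tele n' (f := f) (g := fun v => (ℓ (true :: v) + ℓ (false :: v)) / 2) (Φ := Φ) []
    (fun w hw => hstep w (by simpa using hw))
  rw [S_children] at h1
  have h2 : Lf n' Φ [] ≤ 1 := Lf_le n' [] fun w hw => hΦ1 w (by
    simp only [List.length_nil, add_zero] at hw; omega)
  have h3 := hΦ0 [] (by simp)
  have h4 : S (n' + 1) ℓ [] ≤ 2 * m + 1 / δ := by
    simp only [hℓ]
    have e : (fun v => 2 * s.lα v + s.lG v / (2 * δ))
        = fun v => 2 * s.lα v + (1 / (2 * δ)) * s.lG v := by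
      funext v; ring
    rw [e, S_add, S_smul, S_smul]
    have h6 := S_lG hs
    have h7 : 1 / (2 * δ) * S (n' + 1) s.lG [] ≤ 1 / (2 * δ) * 2 := by gcongr
    have h8 : 1 / (2 * δ) * 2 = 1 / δ := by field_simp
    linarith
  have h5 : 0 ≤ ℓ [] := by
    simp only [hℓ]
    have := lα_nonneg s ([] : Node)
    have := lG_nonneg hs (v := []) (by simp)
    positivity
  rw [S_succ_last]
  have h6 : Lf n' f [] ≤ 1 := Lf_le n' [] fun w hw => hfle w (by
    simp only [List.length_nil, add_zero] at hw; omega)
  linarith

end plain

theorem suffix_closed {T' : Node → Prop} (hT : ∀ b v, T' (b :: v) → T' v) :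
    ∀ {v w : Node}, w <:+ v → T' v → T' w := by
  intro v
  induction v with
  | nil => intro w h hv; rw [List.suffix_nil.1 h]; exact hv
  | cons b v ih =>
    intro w h hv
    rcases List.suffix_cons_iff.1 h with h | h
    · rw [h]; exact hv
    · exact ih h (hT b v hv)

open Classical in
/-- **T8 from T8Core**, abstract letter system. -/
theorem t8use2 {s : ESys K Unit} {n : ℕ} (hs : s.Ok n) (hp : Plain s n) {h m δ C1 ε Xm : ℝ}
    (hδ : 0 < δ) (hh : 0 ≤ h) (hm0 : 0 ≤ m) (hC1 : 0 ≤ C1)
    (h1 : ∀ k z, k + z.length ≤ n → S k s.e1 z ≤ 2 * h)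
    (hm : ∀ k z, k + z.length ≤ n → S k s.lα z ≤ m)
    (om : Node → ℝ) (T' : Node → Prop) (hT : ∀ b v, T' (b :: v) → T' v)
    (hX : S n (fun v => if ¬ T' v ∧ (∀ b u, v = b :: u → T' u) then 1 else 0) [] ≤ Xm)
    (hcore : ∀ k w, w.length < n → T' w → δ < ‖s.B k () w‖ → ∃ y : ℕ → ℝ, (∀ j, 0 ≤ y j) ∧
      (∀ N, ∑ j ∈ range N, y j ≤ C1) ∧
      ∀ v, w <:+ v → v.length < n → T' v → ‖s.dB k () v‖ ≤ y (v.length - w.length) + om v)
    (β : K → Node → ℝ) (hβ0 : ∀ k v, v.length < n → 0 ≤ β k v)
    (hβα : ∀ k v, v.length < n → β k v ≤ s.α k v)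
    (hβε : ∀ v, v.length < n → ∑ k, β k v ≤ ε) :
    S n (fun v => ∑ k, β k v * ‖s.dB k () v‖ ^ 2) []
      ≤ 5 * δ * (40 + 20 * m + 66 * h) + 4 * (2 + 2 * m + 1 / δ) + 2 * C1 ^ 2 * (1 + m)
        + 2 * ε * S n (fun v => if T' v then om v ^ 2 else 0) []
        + (32 + 16 * m + 64 * h) * Xm := by
  have h1r := h1 n [] (by simp)
  have hmr := hm n [] (by simp)
  have hch : ∀ k w, ∃ y : ℕ → ℝ, (∀ j, 0 ≤ y j) ∧ (∀ N, ∑ j ∈ range N, y j ≤ C1) ∧
      (w.length < n → T' w → SeenD s δ k w →
        ∀ v, w <:+ v → v.length < n → T' v → ‖s.dB k () v‖ ≤ y (v.length - w.length) + om v) := by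
    intro k w
    by_cases h : w.length < n ∧ T' w ∧ SeenD s δ k w
    · obtain ⟨y, a, b, c⟩ := hcore k w h.1 h.2.1 h.2.2
      exact ⟨y, a, b, fun _ _ _ => c⟩
    · exact ⟨fun _ => 0, fun _ => le_rfl, fun N => by simpa using hC1,
        fun a b c => absurd ⟨a, b, c⟩ h⟩
  choose y hy0 hyC hyB using hch
  have hsq : ∀ k w N, ∑ j ∈ range N, y k w j ^ 2 ≤ C1 ^ 2 := by
    intro k w N
    have a : ∑ j ∈ range N, y k w j ^ 2 ≤ (∑ j ∈ range N, y k w j) ^ 2 := by
      induction N with
      | zero => simp
      | succ N ih =>
        rw [sum_range_succ, sum_range_succ]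
        have h1 : 0 ≤ ∑ j ∈ range N, y k w j := sum_nonneg fun j _ => hy0 k w j
        have h2 := mul_nonneg h1 (hy0 k w N)
        nlinarith
    have b := hyC k w N
    have c : 0 ≤ ∑ j ∈ range N, y k w j := sum_nonneg fun j _ => hy0 k w j
    exact a.trans (pow_le_pow_left₀ c b 2)
  let Yf : K → Node → ℝ := fun k v => match EntD s δ k v with
    | some w => y k w (v.length - w.length) ^ 2
    | none => 0
  let ρ : K → Node → ℝ := fun k v => match EntD s δ k v with
    | some w => C1 ^ 2 - ∑ j ∈ range (v.length - w.length), y k w j ^ 2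
    | none => C1 ^ 2
  have Ysome : ∀ {k v w}, EntD s δ k v = some w → Yf k v = y k w (v.length - w.length) ^ 2 := by
    intro k v w h; simp only [Yf, h]
  have Ynone : ∀ {k v}, EntD s δ k v = none → Yf k v = 0 := by
    intro k v h; simp only [Yf, h]
  have ρsome : ∀ {k v w}, EntD s δ k v = some w →
      ρ k v = C1 ^ 2 - ∑ j ∈ range (v.length - w.length), y k w j ^ 2 := by
    intro k v w h; simp only [ρ, h]
  have ρnone : ∀ {k v}, EntD s δ k v = none → ρ k v = C1 ^ 2 := by
    intro k v h; simp only [ρ, h]
  have hY : ∀ k v, 0 ≤ Yf k v := by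
    intro k v
    rcases he : EntD s δ k v with _ | w
    · rw [Ynone he]
    · rw [Ysome he]; exact sq_nonneg _
  have hbud := S_budget hs (C := C1 ^ 2) (m := m) (sq_nonneg _) hmr Yf ρ hY
    (by
      intro k v
      rcases he : EntD s δ k v with _ | w
      · rw [ρnone he]; positivity
      · rw [ρsome he]; linarith [hsq k w (v.length - w.length)])
    (by
      intro k v
      rcases he : EntD s δ k v with _ | w
      · rw [ρnone he]
      · rw [ρsome he]
        have : 0 ≤ ∑ j ∈ range (v.length - w.length), y k w j ^ 2 :=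
          sum_nonneg fun j _ => sq_nonneg _
        linarith)
    (by
      intro k v b
      rcases he : EntD s δ k v with _ | w
      · rw [Ynone he, ρnone he]
        rcases EntD_cons_none (b := b) he with h' | h'
        · rw [ρnone h']; simp
        · rw [ρsome h']; simp
      · rw [Ysome he, ρsome he, ρsome (EntD_cons_some he)]
        have hle := (EntD_seen he).2.length_le
        have e : (b :: v).length - w.length = (v.length - w.length) + 1 := by
          simp only [List.length_cons]; omega
        rw [e, sum_range_succ]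
        linarith)
  have hlow := S_low2 hs hp (δ := 5 * δ) (by positivity) hh hm0 h1r hmr
    (fun k v => EntD s δ k v = none ∧ ‖s.dB k () v‖ ≤ 4 * δ)
    (fun k v _ h => by
      have := not_seenD_of_none h.1
      unfold SeenD at this
      push Not at this
      linarith [h.2])
  have hjump := S_jump hs hp hδ hm0 hmr
  have hex := S_exits (f := fun v => ∑ k, β k v * ‖s.dB k () v‖ ^ 2) (T' := T')
    (C := 32 + 16 * m + 64 * h) (by positivity) (n := n)
    (fun v hv => sum_nonneg fun k _ => mul_nonneg (hβ0 k v hv) (sq_nonneg _))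
    (by
      intro k z hz
      refine le_trans (S_mono k z fun w hw => ?_) (S_e4_sub hs hp hz hh (h1 k z hz) (hm k z hz))
      have hw' : w.length < n := by omega
      unfold ESys.e4
      refine sum_le_sum fun k _ => ?_
      rw [α_τ hs hp hw']
      exact mul_le_mul_of_nonneg_right (hβα k w hw') (sq_nonneg _))
  have hle : S n (fun v => ∑ k, β k v * ‖s.dB k () v‖ ^ 2) [] ≤
      S n (fun v => (∑ k, if EntD s δ k v = none ∧ ‖s.dB k () v‖ ≤ 4 * δ
            then s.α k v * ‖s.dB k () v‖ ^ 2 else 0)
        + (4 * (∑ k, if EntD s δ k v = none ∧ 4 * δ < ‖s.dB k () v‖ then s.α k v else 0)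
        + (2 * (∑ k, s.α k v * Yf k v) + ((2 * ε) * (if T' v then om v ^ 2 else 0)
        + (if T' v then 0 else ∑ k, β k v * ‖s.dB k () v‖ ^ 2))))) [] := by
    refine S_mono n [] fun v hv => ?_
    have hv' := lt_of_lt hs v hv
    have n1 : 0 ≤ ∑ k, if EntD s δ k v = none ∧ ‖s.dB k () v‖ ≤ 4 * δ
            then s.α k v * ‖s.dB k () v‖ ^ 2 else 0 := sum_nonneg fun k _ => by
      have := hs.α0 k v hv'
      split_ifs <;> positivity
    have n2 : 0 ≤ ∑ k, if EntD s δ k v = none ∧ 4 * δ < ‖s.dB k () v‖ then s.α k v else 0 :=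
      sum_nonneg fun k _ => by
        have := hs.α0 k v hv'
        split_ifs <;> positivity
    have n3 : 0 ≤ ∑ k, s.α k v * Yf k v := sum_nonneg fun k _ =>
      mul_nonneg (hs.α0 k v hv') (hY k v)
    by_cases hTv : T' v
    · rw [if_pos hTv, if_pos hTv, add_zero]
      have key : ∀ k, β k v * ‖s.dB k () v‖ ^ 2 ≤
          (if EntD s δ k v = none ∧ ‖s.dB k () v‖ ≤ 4 * δ then s.α k v * ‖s.dB k () v‖ ^ 2 else 0)
            + (4 * (if EntD s δ k v = none ∧ 4 * δ < ‖s.dB k () v‖ then s.α k v else 0)
            + (2 * (s.α k v * Yf k v) + 2 * (β k v * om v ^ 2))) := by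
        intro k
        have b0 := hβ0 k v hv'
        have b1 := hβα k v hv'
        have a0 := hs.α0 k v hv'
        have h2 : 0 ≤ β k v * om v ^ 2 := by positivity
        rcases he : EntD s δ k v with _ | w
        · rw [Ynone he]
          by_cases hj : ‖s.dB k () v‖ ≤ 4 * δ
          · rw [if_pos ⟨rfl, hj⟩, if_neg (fun h => absurd h.2 (not_lt.2 hj))]
            have := mul_le_mul_of_nonneg_right b1 (sq_nonneg ‖s.dB k () v‖)
            linarith
          · rw [if_neg (fun h => hj h.2), if_pos ⟨rfl, not_le.1 hj⟩]
            have hn0 := norm_nonneg (s.dB k () v)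
            have hn2 : ‖s.dB k () v‖ ≤ 2 := by
              refine (norm_dB_le hs hv' k ()).trans ?_
              simpa using hs.Gsum v hv'
            have h3 : β k v * ‖s.dB k () v‖ ^ 2 ≤ s.α k v * 2 ^ 2 :=
              mul_le_mul b1 (pow_le_pow_left₀ hn0 hn2 2) (sq_nonneg _) a0
            linarith
        · rw [if_neg (by simp), if_neg (by simp), Ysome he]
          obtain ⟨hseen, hsuf⟩ := EntD_seen he
          have hwl : w.length < n := lt_of_le_of_lt hsuf.length_le hv'
          have hB := hyB k w hwl (suffix_closed hT hsuf hTv) hseen v hsuf hv' hTv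
          have hyn := hy0 k w (v.length - w.length)
          have hn0 := norm_nonneg (s.dB k () v)
          have h2 : ‖s.dB k () v‖ ^ 2 ≤ 2 * y k w (v.length - w.length) ^ 2 + 2 * om v ^ 2 := by
            have h3 : ‖s.dB k () v‖ ^ 2 ≤ (y k w (v.length - w.length) + om v) ^ 2 :=
              pow_le_pow_left₀ hn0 hB 2
            nlinarith [sq_nonneg (y k w (v.length - w.length) - om v)]
          have h3 := mul_le_mul_of_nonneg_left h2 b0
          have h4 := mul_le_mul_of_nonneg_right b1 (sq_nonneg (y k w (v.length - w.length)))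
          linarith
      refine (sum_le_sum fun k _ => key k).trans ?_
      rw [sum_add_distrib, sum_add_distrib, sum_add_distrib, ← mul_sum, ← mul_sum, ← mul_sum,
        ← sum_mul]
      have := mul_le_mul_of_nonneg_right (hβε v hv') (sq_nonneg (om v))
      linarith
    · rw [if_neg hTv, if_neg hTv]
      linarith
  refine hle.trans ?_
  rw [S_add, S_add, S_add, S_add, S_smul, S_smul, S_smul]
  have hex2 := mul_le_mul_of_nonneg_left hX (by positivity : (0:ℝ) ≤ 32 + 16 * m + 64 * h)
  linarith

end Vale.Agent.P091.T8.H655
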