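import Vale.Agent.P091.T8.H655.Asy
import Vale.Agent.P091.T8.H655.Use2
import Vale.Agent.P091.T.H937.Core
import Vale.Agent.P091.T.H454.FamAll

/-! # P091, row T8: assembly (937 `t8core`, 655 `t8use2`, 454 + 862 `famsys`) -/

namespace Vale.Agent.P091.T8.H655

open Finset Vale.Agent.P091.Spec Vale.Agent.P091.H413 Vale.Agent.P091.T
open Vale.Agent.P091.T.H937 (YSide T8Core t8core)
open Vale.Agent.P091.T.H454 (FAMSYS famsys)

theorem arith_core {C δ h di Q ε P s : ℝ} (hC : 0 < C) (hδ : 0 < δ) (hh : 0 ≤ h) (hinv : 8 ≤ di)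
    (hQ0 : 0 ≤ Q) (hε : 0 ≤ ε) (hP0 : 0 ≤ P) (f1 : 2 * ε * s ≤ 2 * ε * (C * P)) :
    5 * δ * (40 + 20 * 1 + 66 * h) + 4 * (2 + 2 * 1 + di) + 2 * C ^ 2 * (1 + 1)
          + 2 * ε * s + (32 + 16 * 1 + 64 * h) * (C / 8 * Q)
      ≤ (400 + 8 * C ^ 2 + 2 * C + 64 * C) * (δ * (1 + h) + di + ε * P + (1 + h) * Q) := by
  have g1 : 0 ≤ δ * (1 + h) := by positivity
  have g2 : 0 ≤ ε * P := by positivity
  have g3 : 0 ≤ (1 + h) * Q := by positivity
  have g4 : 0 ≤ C ^ 2 := by positivity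
  have g5 : 0 ≤ di := by linarith
  have a1 : 5 * δ * (40 + 20 * 1 + 66 * h) ≤ 400 * (δ * (1 + h)) := by
    have h1 : 0 ≤ δ * h := by positivity
    have h2 : 5 * δ * (40 + 20 * 1 + 66 * h) = 300 * δ + 330 * (δ * h) := by ring
    have h3 : 400 * (δ * (1 + h)) = 400 * δ + 400 * (δ * h) := by ring
    rw [h2, h3]
    linarith
  have a2 : 4 * (2 + 2 * 1 + di) + 2 * C ^ 2 * (1 + 1) ≤ (400 + 8 * C ^ 2) * di := by
    have h1 : 0 ≤ C ^ 2 * (di - 8) := mul_nonneg g4 (by linarith)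
    have h2 : C ^ 2 * (di - 8) = C ^ 2 * di - 8 * C ^ 2 := by ring
    have h3 : (400 + 8 * C ^ 2) * di = 400 * di + 8 * (C ^ 2 * di) := by ring
    rw [h2] at h1
    rw [h3]
    have h4 : 0 ≤ C ^ 2 * di := by positivity
    linarith
  have a3 : 2 * ε * s ≤ 2 * C * (ε * P) := f1.trans (le_of_eq (by ring))
  have a4 : (32 + 16 * 1 + 64 * h) * (C / 8 * Q) ≤ 64 * C * ((1 + h) * Q) := by
    have h1 : 0 ≤ C * Q := by positivity
    have h2 : 0 ≤ h * (C * Q) := by positivity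
    have h3 : (32 + 16 * 1 + 64 * h) * (C / 8 * Q) = 6 * (C * Q) + 8 * (h * (C * Q)) := by ring
    have h4 : 64 * C * ((1 + h) * Q) = 64 * (C * Q) + 64 * (h * (C * Q)) := by ring
    rw [h3, h4]
    linarith
  have b1 : 400 * (δ * (1 + h)) ≤ (400 + 8 * C ^ 2 + 2 * C + 64 * C) * (δ * (1 + h)) :=
    mul_le_mul_of_nonneg_right (by linarith) g1
  have b2 : (400 + 8 * C ^ 2) * di ≤ (400 + 8 * C ^ 2 + 2 * C + 64 * C) * di :=
    mul_le_mul_of_nonneg_right (by linarith) g5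
  have b3 : 2 * C * (ε * P) ≤ (400 + 8 * C ^ 2 + 2 * C + 64 * C) * (ε * P) :=
    mul_le_mul_of_nonneg_right (by linarith) g2
  have b4 : 64 * C * ((1 + h) * Q) ≤ (400 + 8 * C ^ 2 + 2 * C + 64 * C) * ((1 + h) * Q) :=
    mul_le_mul_of_nonneg_right (by linarith) g3
  calc 5 * δ * (40 + 20 * 1 + 66 * h) + 4 * (2 + 2 * 1 + di) + 2 * C ^ 2 * (1 + 1)
        + 2 * ε * s + (32 + 16 * 1 + 64 * h) * (C / 8 * Q)
      ≤ (400 + 8 * C ^ 2 + 2 * C + 64 * C) * (δ * (1 + h))
        + (400 + 8 * C ^ 2 + 2 * C + 64 * C) * di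
        + (400 + 8 * C ^ 2 + 2 * C + 64 * C) * (ε * P)
        + (400 + 8 * C ^ 2 + 2 * C + 64 * C) * ((1 + h) * Q) := by linarith
    _ = _ := by ring

theorem Lf_nonneg (n : ℕ) {f : Node → ℝ} (v : Node) (h : ∀ w, 0 ≤ f w) : 0 ≤ Lf n f v := by
  induction n generalizing v with
  | zero => exact h v
  | succ n ih =>
    have h1 := ih (true :: v)
    have h2 := ih (false :: v)
    change 0 ≤ (Lf n f (true :: v) + Lf n f (false :: v)) / 2
    linarith

/-- T8 in the form of Lemma E, with explicit parameters -/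
theorem famCore (hcore : T8Core) : ∃ C : ℝ, 0 < C ∧
    ∀ (ι : Type) [Fintype ι] (n M : ℕ) [NeZero M] (D E δ ε h : ℝ) (N : ℕ)
      (s : ESys ι Unit) (Ys : YSide n D) (β : ι → Node → ℝ) (T : Node → Prop) (θ : ι → ZMod M),
      1 ≤ D → 0 ≤ E → 0 < δ → δ ≤ 1 / 8 → 1 ≤ N → 0 ≤ ε → 0 ≤ h →
      s.Ok n → Plain s n →
      (∀ k z, k + z.length ≤ n → S k s.e1 z ≤ 2 * h) →
      (∀ k z, k + z.length ≤ n → S k s.lα z ≤ 1) →
      (∀ b v, T (b :: v) → T v) → (∀ v, T v → Ys.G v ≤ 2) →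
      S (n + 1) Ys.loss [] ≤ E →
      (∀ k v, v.length < n →
        ‖s.B k () v‖ = ‖Ys.B (θ k) v‖ / 2 ∧ ‖s.dB k () v‖ = ‖Ys.dB (θ k) v‖ / 2) →
      (∀ k v, v.length < n → ¬ T v → s.B k () v = 0 ∧ s.dB k () v = 0) →
      (∀ k v, v.length < n → 0 ≤ β k v) →
      (∀ k v, v.length < n → β k v ≤ s.α k v) →
      (∀ v, v.length < n → ∑ k, β k v ≤ ε) →
      S n (fun v => ∑ k, β k v * ‖s.dB k () v‖ ^ 2) [] ≤
        C * (δ * (1 + h) + 1 / δ
          + ε * (((N : ℝ) + Real.log (1 / (2 * δ))) ^ 3 * (D + E + N * Real.log (20 * (N + 1))))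
          + (1 + h) * ((D + E) / (δ ^ 3 * N))) := by
  obtain ⟨C, hC, H⟩ := hcore
  refine ⟨400 + 8 * C ^ 2 + 2 * C + 64 * C, by positivity, ?_⟩
  intro ι _ n M _ D E δ ε h N s Ys β T θ hD hE hδ hδ8 hN hε hh hs hp h1 hm hT hG hloss hB hB0
    hβ0 hβα hβε
  obtain ⟨T', om, hT', hTT', hom, hx, hen, hprof⟩ := H n M D E (2 * δ) N Ys T hD hE (by linarith)
    (by linarith) hN hT hG hloss
  classical
  have hCx : 0 ≤ C * (D + E) / ((2 * δ) ^ 3 * N) := by positivity
  -- the extended prefix-closed set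
  let T2 : Node → Prop := fun v => ∀ u, u <:+ v → T u → T' u
  have hT2 : ∀ b v, T2 (b :: v) → T2 v := fun b v h u hu =>
    h u (hu.trans (List.suffix_cons b v))
  have hT2T : ∀ v, T2 v → T v → T' v := fun v h => h v (List.suffix_refl v)
  have key := t8use2 hs hp (h := h) (m := 1) (δ := δ) (C1 := C) (ε := ε)
    (Xm := C * (D + E) / ((2 * δ) ^ 3 * N)) hδ hh (by norm_num) hC.le h1 hm
    (fun v => if T' v then om v else 0) T2 hT2 ?_ ?_ β hβ0 hβα hβε
  · refine key.trans ?_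
    have e1 : S n (fun v => if T2 v then (if T' v then om v else 0) ^ 2 else 0) []
        ≤ S n (fun v => if T' v then om v ^ 2 else 0) [] := by
      refine S_mono n [] fun v _ => ?_
      by_cases h1 : T' v
      · simp only [if_pos h1]
        split_ifs
        · exact le_rfl
        · positivity
      · simp only [if_neg h1]
        split_ifs <;> norm_num
    have e2 := e1.trans hen
    set P : ℝ := ((N : ℝ) + Real.log (1 / (2 * δ))) ^ 3 * (D + E + N * Real.log (20 * (N + 1)))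
      with hP
    have hlog : 0 ≤ Real.log (1 / (2 * δ)) := by
      apply Real.log_nonneg
      rw [le_div_iff₀ (by positivity)]
      linarith
    have hN1 : (1 : ℝ) ≤ N := by exact_mod_cast hN
    have hlog2 : 0 ≤ Real.log (20 * ((N : ℝ) + 1)) := Real.log_nonneg (by linarith)
    have hP0 : 0 ≤ P := by
      rw [hP]
      have : 0 ≤ (N : ℝ) * Real.log (20 * (N + 1)) := by positivity
      have : 0 ≤ D + E + N * Real.log (20 * (N + 1)) := by linarith
      positivity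
    have e3 : S n (fun v => if T2 v then (if T' v then om v else 0) ^ 2 else 0) [] ≤ C * P := by
      rw [hP, ← mul_assoc]; exact e2
    have hQ : C * (D + E) / ((2 * δ) ^ 3 * N) = C / 8 * ((D + E) / (δ ^ 3 * N)) := by
      field_simp
      ring
    rw [hQ]
    set Q : ℝ := (D + E) / (δ ^ 3 * N) with hQdef
    have hQ0 : 0 ≤ Q := by rw [hQdef]; positivity
    have hinv : 8 ≤ 1 / δ := by rw [le_div_iff₀ hδ]; linarith
    set di : ℝ := 1 / δ with hdi
    have f1 : 2 * ε * S n (fun v => if T2 v then (if T' v then om v else 0) ^ 2 else 0) []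
        ≤ 2 * ε * (C * P) := mul_le_mul_of_nonneg_left e3 (by positivity)
    exact arith_core hC hδ hh hinv hQ0 hε hP0 f1
  · -- exits
    refine le_trans ?_ hx
    have hle : S n (fun v => if ¬ T2 v ∧ (∀ b u, v = b :: u → T2 u) then (1 : ℝ) else 0) []
        ≤ S n (fun v => if T v ∧ ¬ T' v ∧ (∀ b u, v = b :: u → T' u) then (1 : ℝ) else 0) [] := by
      refine S_mono n [] fun v _ => ?_
      by_cases h : ¬ T2 v ∧ (∀ b u, v = b :: u → T2 u)
      · have h' : T v ∧ ¬ T' v ∧ (∀ b u, v = b :: u → T' u) := by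
          obtain ⟨ha, hb⟩ := h
          have ha' : ∃ u, u <:+ v ∧ T u ∧ ¬ T' u := by
            by_contra hcon
            apply ha
            intro u hu hTu
            by_contra hT'u
            exact hcon ⟨u, hu, hTu, hT'u⟩
          obtain ⟨u, hu, hTu, hTu'⟩ := ha'
          have huv : u = v := by
            cases v with
            | nil => exact List.suffix_nil.1 hu
            | cons b v =>
              rcases List.suffix_cons_iff.1 hu with h | h
              · exact h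
              · exact absurd (hb b v rfl u h hTu) hTu'
          subst huv
          refine ⟨hTu, hTu', ?_⟩
          intro b w hw
          subst hw
          exact hT2T w (hb b w rfl) (hT b w hTu)
        rw [if_pos h, if_pos h']
      · rw [if_neg h]; split_ifs <;> norm_num
    refine hle.trans ?_
    rw [S_succ_last]
    have h0 : 0 ≤ Lf n (fun v => if T v ∧ ¬ T' v ∧ (∀ b u, v = b :: u → T' u) then (1 : ℝ)
        else 0) [] := Lf_nonneg n [] fun w => by split_ifs <;> norm_num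
    linarith
  · -- the core
    intro k w hw hTw hbig
    have hTw' : T w := by
      by_contra hcon
      have := (hB0 k w hw hcon).1
      rw [this, norm_zero] at hbig
      linarith
    have e1 := (hB k w hw).1
    obtain ⟨y, hy0, hyC, hyB⟩ := hprof (θ k) w hw.le (hT2T w hTw hTw') (by rw [e1] at hbig; linarith)
    refine ⟨y, hy0, hyC, ?_⟩
    intro v hwv hv hTv
    by_cases hv' : T v
    · have h2 := hyB v hwv hv (hT2T v hTv hv')
      have e2 := (hB k v hv).2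
      rw [e2, if_pos (hT2T v hTv hv')]
      have := norm_nonneg (Ys.dB (θ k) v)
      linarith
    · rw [(hB0 k v hv hv').2, norm_zero]
      have h3 : ¬ T' v := fun h => hv' (hTT' v h)
      rw [if_neg h3]
      have := hy0 (v.length - w.length)
      linarith

/-- **Row T8** from `T8Core` and the letter system of the family. -/
theorem p_T8_of (hcore : T8Core) (hfam : FAMSYS) : P_T8 := by
  obtain ⟨C, hC, H⟩ := famCore hcore
  intro s0 C1 hs0 hC1
  have ev := (((((((ev_ll (16 * C * (3 + 2 * C1))).and (ev_ll 2)).and (ev_pow 41 (16 * C))).and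
    ((ev_pow 21 1).and (ev_pow 20 1))).and ((ev_pow 4 1).and (ev_pow 1 20))).and
    (ev_pow 83 (48 * C * (3 + 2 * C1)))).and (ev_exp (53136 * C))).and
    (Filter.eventually_ge_atTop (2 : ℝ))
  obtain ⟨D0, hD0⟩ := Filter.eventually_atTop.1 ev
  refine ⟨D0, ?_⟩
  intro D n ι _ d j0 a0 Y W w hD hF hw0 hw1 hfl hmass
  obtain ⟨⟨⟨⟨⟨⟨⟨c1, c2⟩, c3⟩, ⟨c4, c5⟩⟩, ⟨c6, c7⟩⟩, c8⟩, c9⟩, c10⟩ := hD0 D hD
  have hD1 : 1 ≤ D := by linarith
  obtain ⟨s, Ys, β, T, hs, hp, h1, hm, hT, hG, hloss, hB, hB0, hβ0, hβα, hβε, hfin⟩ :=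
    hfam s0 C1 hs0 hC1 D n (bb D) ι d j0 a0 Y W w (Real.exp (-(D / (ll D : ℝ) ^ 2))) hD1
      hF hw0 hw1 hfl hmass (Real.exp_pos _).le
  set l : ℝ := (ll D : ℝ) with hl
  have hl0 : 0 < l := by linarith
  have hll : 0 ≤ Real.log l := Real.log_nonneg (by linarith)
  have hD3 : (1 : ℝ) ≤ D ^ 3 := one_le_pow₀ hD1
  have hNge : D ^ 3 ≤ (⌈D ^ 3⌉₊ : ℝ) := Nat.le_ceil _
  have hNle : (⌈D ^ 3⌉₊ : ℝ) ≤ D ^ 3 + 1 := (Nat.ceil_lt_add_one (by positivity)).le
  have hN1 : 1 ≤ ⌈D ^ 3⌉₊ := Nat.one_le_ceil_iff.2 (by positivity)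
  have h21 : (2 : ℝ) ^ 21 ≤ l ^ 21 := pow_le_pow_left₀ (by norm_num) c2 21
  have hδ8 : 1 / l ^ 21 ≤ 1 / 8 := by
    apply one_div_le_one_div_of_le (by norm_num)
    norm_num at h21
    linarith
  have key := H ι (n - j0) (2 ^ (n + bb D)) (2 * D) (1 + 10 * Real.log l) (1 / l ^ 21)
    (Real.exp (-(D / l ^ 2))) (2 * C1 * D + 2) ⌈D ^ 3⌉₊ s Ys β T (fun k => -(d.r k)) (by linarith)
    (by positivity) (by positivity) hδ8 hN1 (Real.exp_pos _).le (by positivity) hs hp
    (fun k z hk => (h1 k z hk).trans (by linarith)) hm hT hG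
    hloss hB hB0 (fun k v _ => hβ0 k v) hβα hβε
  have fin := fin_arith (C := C) (C1 := 2 * C1) (D := D) (l := l) (N := (⌈D ^ 3⌉₊ : ℝ)) hC
    (by linarith) hD1 c2 c1 c3 (by rwa [one_mul] at c4) (by rw [pow_one] at c7; linarith) (by rwa [one_mul] at c5)
    (by rwa [one_mul] at c6) c9 c8 hNge hNle
  refine hfin.trans ?_
  have hav : 0 ≤ av n j0 a0 (cut d.p Y) ^ 2 := sq_nonneg _
  calc 4 * av n j0 a0 (cut d.p Y) ^ 2 *
          S (n - j0) (fun v => ∑ k, β k v * ‖s.dB k () v‖ ^ 2) []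
      = 4 * S (n - j0) (fun v => ∑ k, β k v * ‖s.dB k () v‖ ^ 2) [] *
          av n j0 a0 (cut d.p Y) ^ 2 := by ring
    _ ≤ D / l ^ 20 * av n j0 a0 (cut d.p Y) ^ 2 := by
      apply mul_le_mul_of_nonneg_right _ hav
      refine le_trans ?_ fin
      exact mul_le_mul_of_nonneg_left key (by norm_num)

/-- **Row T8** (literal). -/
theorem p_T8 : P_T8 := p_T8_of t8core famsys

end Vale.Agent.P091.T8.H655
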