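import Vale.Agent.P091.T.H103.Dat
import Vale.Agent.P091.T.H587.FamY

/-! # P091, row E1-D (route B), piece (d): the `y`-energy of the data of an epoch -/

set_option autoImplicit false

namespace Vale.Agent.P091.T8.H655

open Finset Vale.Agent.P091.Spec Vale.Agent.P091.H413 Vale.Agent.P091.T

section
variable {C1 D : ℝ} {n b : ℕ} {ι : Type} [Fintype ι] {d : ZData C1 D n b ι} {s0 : ℝ} {j0 a0 : ℕ}
  {Y : Finset ℕ} {W : ℕ → ℕ → Finset ℕ}

theorem fY_eq {v y : Node} (hv : v.length ≤ n - j0) (hy : v <:+ y) :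
    H587.fY d.p n j0 a0 Y W v.length y =
      cut d.p (W (j0 + v.length) (ia a0 v)) (ia a0 y) / (2 * av n j0 a0 (cut d.p Y)) := by
  obtain ⟨u, rfl⟩ := hy
  unfold H587.fY
  rw [if_pos hv, H587.anc_app u v]

/-- **Piece (d).** The `y`-energy of every `Dat` with the alive density and the kernel of the
epoch. -/
theorem dat_y_energy {A c : ℝ} {J : List (Un n b)} (hE : Epoch d A c s0 J j0 a0 Y W)
    {ι' I : Type} [Fintype ι'] [Fintype I]
    (dd : H103.Dat ι' I (Fin J.length → ZMod (2 ^ (n + b)))) (hn : dd.n = n - j0)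
    (hf : ∀ v y : Node, v.length < n - j0 → y.length = n - j0 → v <:+ y →
      dd.f v y = cut d.p (W (j0 + v.length) (ia a0 v)) (ia a0 y) /
        (2 * av n j0 a0 (cut d.p Y)))
    (hP : ∀ q (y : Node), y.length = n - j0 →
      dd.P q y = H587.kerL J q (ia a0 y : ZMod (2 ^ (n + b)))) :
    S dd.n (fun v => ∑ q, dd.sys.dG q v ^ 2 / dd.sys.G q v) [] ≤
      4 + J.length * |ep c D * D| := by
  refine le_trans ?_ (H587.y_energy_epoch hE)
  have e : ∀ F : Node → ℝ, S dd.n F [] = S (n - j0) F [] := fun F => by rw [hn]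
  rw [e]
  refine S_mono _ [] fun v hv => ?_
  have hv' : v.length < n - j0 := by simpa using hv
  refine le_of_eq (sum_congr rfl fun q _ => ?_)
  have key : ∀ c : Bool, dd.sys.G' q (c :: v) =
      Lf (n - j0 - (c :: v).length) (fun y => H587.fY d.p n j0 a0 Y W ((c :: v).length - 1) y *
        H587.kerL J q (ia a0 y : ZMod (2 ^ (n + b)))) (c :: v) := by
    intro c
    change Lf (dd.n - (c :: v).length) (fun y => dd.f v y * dd.P q y) (c :: v) = _
    rw [hn]
    apply H103.Lf_congr
    intro x hx hs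
    have hx' : x.length = n - j0 := by
      simp only [List.length_cons] at hx ⊢
      omega
    have hs' : v <:+ x := H103.suf_child hs
    change dd.f v x * dd.P q x = H587.fY d.p n j0 a0 Y W ((c :: v).length - 1) x * _
    rw [hf v x hv' hx' hs', hP q x hx', List.length_cons, Nat.add_sub_cancel,
      fY_eq hv'.le hs']
  have key2 : dd.sys.G q v =
      Lf (n - j0 - v.length) (fun y => H587.fY d.p n j0 a0 Y W v.length y *
        H587.kerL J q (ia a0 y : ZMod (2 ^ (n + b)))) v := by
    change Lf (dd.n - v.length) (fun y => dd.f v y * dd.P q y) v = _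
    rw [hn]
    apply H103.Lf_congr
    intro x hx hs
    have hx' : x.length = n - j0 := by omega
    change dd.f v x * dd.P q x = H587.fY d.p n j0 a0 Y W v.length x * _
    rw [hf v x hv' hx' hs, hP q x hx', fY_eq hv'.le hs]
  change ((dd.sys.G' q (true :: v) - dd.sys.G' q (false :: v)) / 2) ^ 2 / dd.sys.G q v = _
  rw [key true, key false, key2]

end

end Vale.Agent.P091.T8.H655
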