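import Vale.Agent.P091.H413.Sys3

/-!
# P091, row T8 (helper655): use of the core of T8

Letters: an `ESys K Unit` whose x-coefficients are the masses themselves (`A = α`), so that
`B k ()` is the letter martingale of the class `k` and `τ k = dB k ()`.
`Seen`: the letter is `δ`-large on departure at the node or on arrival at one of its children.
The core of T8 is the hypothesis `hcore` of `t8use`: below a node where the letter has been seen,
`‖dB‖ ≤ y (depth) + om`, with `∑ y ≤ C1`, `om` independent of the letter.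
-/

set_option autoImplicit false

open Finset Real
open Vale.Agent.P091.H413 Vale.Agent.P091.H413.ESys

noncomputable section

namespace Vale.Agent.P091.T8.H655

set_option linter.unusedSectionVars false

variable {K : Type} [Fintype K]

/-- the x-coefficients are the masses -/
structure Plain (s : ESys K Unit) (n : ℕ) : Prop where
  A : ∀ k v, v.length < n → s.A k () v = (s.α k v : ℂ)
  A' : ∀ k v, v.length ≤ n → s.A' k () v = (s.α' k v : ℂ)

/-- the letter of `k` is `δ`-large at `v` (departure) or on arrival at a child of `v` -/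
def Seen (s : ESys K Unit) (δ : ℝ) (k : K) (v : Node) : Prop :=
  δ < ‖s.B k () v‖ ∨ ∃ c : Bool, δ < ‖s.B' k () (c :: v)‖

/-- `Ent k v = some w`: `w` is the first node above (or equal to) `v` where `k` is seen. -/
def Ent (s : ESys K Unit) (δ : ℝ) (k : K) : Node → Option Node
  | [] => by classical exact if Seen s δ k [] then some [] else none
  | b :: v => by
    classical
    exact match Ent s δ k v with
      | some w => some w
      | none => if Seen s δ k (b :: v) then some (b :: v) else none

section ent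
variable {s : ESys K Unit} {δ : ℝ} {k : K}

theorem Ent_cons_some {b : Bool} {v w : Node} (h : Ent s δ k v = some w) :
    Ent s δ k (b :: v) = some w := by
  simp only [Ent, h]

theorem Ent_cons_none {b : Bool} {v : Node} (h : Ent s δ k v = none) :
    Ent s δ k (b :: v) = none ∨ Ent s δ k (b :: v) = some (b :: v) := by
  classical
  simp only [Ent, h]
  split_ifs
  · right; rfl
  · left; rfl

theorem Ent_seen : ∀ {v w : Node}, Ent s δ k v = some w → Seen s δ k w ∧ w <:+ v
  | [], w, h => by
    classical
    unfold Ent at h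
    by_cases hs : Seen s δ k []
    · rw [if_pos hs] at h
      cases h
      exact ⟨hs, List.suffix_rfl⟩
    · rw [if_neg hs] at h; cases h
  | b :: v, w, h => by
    classical
    rcases he : Ent s δ k v with _ | w'
    · rcases Ent_cons_none (b := b) he with h' | h'
      · rw [h'] at h; cases h
      · have hh := h
        rw [h'] at h
        cases h
        refine ⟨?_, List.suffix_rfl⟩
        simp only [Ent, he] at hh
        by_contra hn
        rw [if_neg hn] at hh; cases hh
    · rw [Ent_cons_some he] at h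
      cases h
      obtain ⟨h1, h2⟩ := Ent_seen he
      exact ⟨h1, h2.trans (List.suffix_cons b v)⟩

theorem not_seen_of_none {v : Node} (h : Ent s δ k v = none) : ¬ Seen s δ k v := by
  classical
  intro hs
  cases v with
  | nil => unfold Ent at h; rw [if_pos hs] at h; cases h
  | cons b v =>
    rcases he : Ent s δ k v with _ | w'
    · simp only [Ent, he] at h
      rw [if_pos hs] at h; cases h
    · rw [Ent_cons_some he] at h; cases h

end ent

/-- **Domination along paths.** `Y v` with budget `ρ` (`Y v + ρ (child) ≤ ρ v`). -/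
theorem S_budget {s : ESys K Unit} {n : ℕ} (hs : s.Ok n) {C m : ℝ} (hC : 0 ≤ C)
    (hm : S n s.lα [] ≤ m) (Y ρ : K → Node → ℝ) (hY : ∀ k v, 0 ≤ Y k v)
    (hρ0 : ∀ k v, 0 ≤ ρ k v) (hρC : ∀ k v, ρ k v ≤ C)
    (hstep : ∀ k v b, Y k v + ρ k (b :: v) ≤ ρ k v) :
    S n (fun v => ∑ k, s.α k v * Y k v) [] ≤ C + C * m := by
  rcases Nat.eq_zero_or_pos n with hn | hn
  · subst hn
    have : 0 ≤ m := by simpa [S] using hm
    simp only [S]; positivity
  have h := S_tele2 n (f := fun v => ∑ k, s.α k v * Y k v) (g := fun _ => 0)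
    (Φ := fun v => ∑ k, s.α k v * (C - ρ k v)) (Φ' := fun v => ∑ k, s.α' k v * (C - ρ k v))
    (ℓ := fun v => C * s.lα v) (c := C) hC []
    (by
      intro w hw
      have hw' := lt_of_lt hs w hw
      have key : ∀ k, s.α k w * Y k w ≤
          (s.α' k (true :: w) * (C - ρ k (true :: w)) + s.α' k (false :: w) * (C - ρ k (false :: w))) / 2
            - s.α k w * (C - ρ k w) := by
        intro k
        have a0 := hs.α0' k (true :: w) (by simp only [List.length_cons]; omega)
        have a1 := hs.α0' k (false :: w) (by simp only [List.length_cons]; omega)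
        have h1 := mul_le_mul_of_nonneg_left (hstep k w true) a0
        have h2 := mul_le_mul_of_nonneg_left (hstep k w false) a1
        rw [hs.αm k w hw']
        linarith
      refine (sum_le_sum fun k _ => key k).trans (le_of_eq ?_)
      rw [sum_sub_distrib, ← sum_div, sum_add_distrib]
      ring)
    (by
      intro w _ hw
      have hw' := lt_of_lt hs w hw
      change ∑ k, s.α' k w * (C - ρ k w) - ∑ k, s.α k w * (C - ρ k w) ≤ C * s.lα w
      rw [← sum_sub_distrib]
      unfold ESys.lα
      rw [mul_sum]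
      refine sum_le_sum fun k _ => ?_
      have h1 : s.α' k w * (C - ρ k w) - s.α k w * (C - ρ k w)
          = (s.α' k w - s.α k w) * (C - ρ k w) := by ring
      rw [h1]
      have h2 : (s.α' k w - s.α k w) ≤ max (s.α' k w - s.α k w) 0 := le_max_left _ _
      have h3 : 0 ≤ max (s.α' k w - s.α k w) 0 := le_max_right _ _
      have h4 : 0 ≤ C - ρ k w := sub_nonneg.2 (hρC k w)
      have h5 : C - ρ k w ≤ C := by linarith [hρ0 k w]
      calc (s.α' k w - s.α k w) * (C - ρ k w) ≤ max (s.α' k w - s.α k w) 0 * (C - ρ k w) :=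
            mul_le_mul_of_nonneg_right h2 h4
        _ ≤ max (s.α' k w - s.α k w) 0 * C := mul_le_mul_of_nonneg_left h5 h3
        _ = _ := mul_comm _ _)
    (fun w _ => mul_nonneg hC (lα_nonneg s w))
    (sum_nonneg fun k _ => mul_nonneg (hs.α0 k [] (by simpa using hn)) (sub_nonneg.2 (hρC k [])))
    (by
      intro w hw
      have hw' : w.length ≤ n := by simpa using hw
      have h1 : ∑ k, s.α' k w * (C - ρ k w) ≤ ∑ k, s.α' k w * C :=
        sum_le_sum fun k _ => mul_le_mul_of_nonneg_left (by linarith [hρ0 k w]) (hs.α0' k w hw')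
      rw [← sum_mul] at h1
      have h2 := mul_le_mul_of_nonneg_right (hs.αsum' w hw') hC
      linarith)
  have h3 : S n (fun _ => (0:ℝ)) [] = 0 := by
    have := S_smul n 0 (fun _ => 0) ([] : Node)
    simpa using this
  rw [h3, S_smul] at h
  have := mul_le_mul_of_nonneg_left hm hC
  linarith

section plain
variable {s : ESys K Unit} {n : ℕ} (hs : s.Ok n) (hp : Plain s n)
include hs hp

theorem rA_zero {v : Node} (hv : v.length < n) (k : K) : s.rA k () v = 0 := by
  have h1 := hp.A' k (true :: v) (by simp only [List.length_cons]; omega)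
  have h2 := hp.A' k (false :: v) (by simp only [List.length_cons]; omega)
  have a0 := hs.α0' k (true :: v) (by simp only [List.length_cons]; omega)
  have a1 := hs.α0' k (false :: v) (by simp only [List.length_cons]; omega)
  unfold ESys.rA rem
  rw [h1, h2]
  rcases eq_or_ne ((s.α' k (true :: v) + s.α' k (false :: v)) / 2) 0 with h | h
  · have e0 : s.α' k (true :: v) = 0 := by linarith
    have e1 : s.α' k (false :: v) = 0 := by linarith
    rw [e0, e1]; simp
  · have h' : (((s.α' k (true :: v) + s.α' k (false :: v)) / 2 : ℝ) : ℂ) ≠ 0 := by exact_mod_cast h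
    have e : ((s.α' k (true :: v) : ℂ) + (s.α' k (false :: v) : ℂ)) / 2
        = (((s.α' k (true :: v) + s.α' k (false :: v)) / 2 : ℝ) : ℂ) := by push_cast; ring
    rw [e, div_self h']
    push_cast; ring

theorem τ_eq {v : Node} (hv : v.length < n) (k : K) (hα : s.α k v ≠ 0) :
    s.τ k v = s.dB k () v := by
  unfold ESys.τ
  have : (s.α k v : ℂ) ≠ 0 := by exact_mod_cast hα
  simp [hp.A k v hv, div_self this]

theorem α_τ {v : Node} (hv : v.length < n) (k : K) :
    s.α k v * ‖s.τ k v‖ ^ 2 = s.α k v * ‖s.dB k () v‖ ^ 2 := by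
  rcases eq_or_ne (s.α k v) 0 with h | h
  · rw [h]; simp
  · rw [τ_eq hs hp hv k h]

theorem e2_zero {v : Node} (hv : v.length < n) : s.e2 v = 0 := by
  unfold ESys.e2
  refine sum_eq_zero fun k _ => ?_
  simp [rA_zero hs hp hv k]

theorem S_e2_zero : S n s.e2 [] = 0 := by
  have h1 := S_mono n (f := s.e2) (g := fun _ => 0) [] (fun w hw =>
    (e2_zero hs hp (lt_of_lt hs w hw)).le)
  have h3 : S n (fun _ => (0:ℝ)) [] = 0 := by
    have := S_smul n 0 (fun _ => 0) ([] : Node)
    simpa using this
  exact le_antisymm (h3 ▸ h1) (S_e2_nonneg hs)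

theorem z_eq' {v : Node} (hv : v.length < n) (k : K) : s.z k v = s.α k v * s.B k () v := by
  unfold ESys.z; simp [hp.A k v hv]

theorem z'_eq' {v : Node} (hv : v.length ≤ n) (k : K) : s.z' k v = s.α' k v * s.B' k () v := by
  unfold ESys.z'; simp [hp.A' k v hv]

/-- total letter energy -/
theorem S_e4_total {h m : ℝ} (hh : 0 ≤ h) (h1 : S n s.e1 [] ≤ 2 * h) (hm : S n s.lα [] ≤ m) :
    S n s.e4 [] ≤ 32 + 16 * m + 64 * h := by
  classical
  have := S_e4 (δ := 2) (h := h) (m := m) (b := 0) hs (by norm_num) hh le_rfl h1 hm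
    (fun _ _ => True)
    (by
      intro k v hv _
      constructor
      · rw [z_eq' hs hp hv, norm_mul, Complex.norm_real, norm_of_nonneg (hs.α0 k v hv), mul_comm]
        refine mul_le_mul_of_nonneg_right ?_ (hs.α0 k v hv)
        refine (hs.B1 k () v hv).trans ?_
        simpa using hs.Gsum v hv
      · intro c
        have hc : (c :: v).length ≤ n := by simp only [List.length_cons]; omega
        rw [z'_eq' hs hp hc, norm_mul, Complex.norm_real, norm_of_nonneg (hs.α0' k _ hc), mul_comm]
        refine mul_le_mul_of_nonneg_right ?_ (hs.α0' k _ hc)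
        refine (hs.B1' k () _ hc).trans ?_
        simpa using hs.Gsum' _ hc)
    (by
      have h3 : S n (fun _ => (0:ℝ)) [] = 0 := by
        have := S_smul n 0 (fun _ => 0) ([] : Node)
        simpa using this
      simp [h3])
  rw [S_e2_zero hs hp] at this
  simp only [sqrt_zero, zero_mul, mul_zero] at this
  linarith

/-- **low part** -/
theorem S_low {h m δ : ℝ} (hδ : 0 ≤ δ) (hh : 0 ≤ h) (hm0 : 0 ≤ m) (h1 : S n s.e1 [] ≤ 2 * h)
    (hm : S n s.lα [] ≤ m) (good : K → Node → Prop) [∀ k v, Decidable (good k v)]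
    (hg : ∀ k v, v.length < n → good k v → ¬ Seen s δ k v) :
    S n (fun v => ∑ k, if good k v then s.α k v * ‖s.dB k () v‖ ^ 2 else 0) []
      ≤ δ * (40 + 20 * m + 66 * h) := by
  rcases Nat.eq_zero_or_pos n with hn | hn
  · subst hn
    simp only [S]; positivity
  have hg' : ∀ k v, v.length < n → good k v → ‖s.z k v‖ ≤ δ * s.α k v ∧
      ∀ c : Bool, ‖s.z' k (c :: v)‖ ≤ δ * s.α' k (c :: v) := by
    intro k v hv hgk
    have hns := hg k v hv hgk
    unfold Seen at hns
    push Not at hns
    constructor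
    · rw [z_eq' hs hp hv, norm_mul, Complex.norm_real, norm_of_nonneg (hs.α0 k v hv), mul_comm]
      exact mul_le_mul_of_nonneg_right hns.1 (hs.α0 k v hv)
    · intro c
      have hc : (c :: v).length ≤ n := by simp only [List.length_cons]; omega
      rw [z'_eq' hs hp hc, norm_mul, Complex.norm_real, norm_of_nonneg (hs.α0' k _ hc), mul_comm]
      exact mul_le_mul_of_nonneg_right (hns.2 c) (hs.α0' k _ hc)
  have key := S_tele2 n
    (f := fun v => ∑ k, if good k v then s.α k v * ‖s.dB k () v‖ ^ 2 else 0)
    (Φ := s.Φ4 δ) (Φ' := s.Φ4' δ) (c := 4 * δ)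
    (g := fun v => 2 * δ * (∑ k, |s.dα k v| * ‖s.τ k v‖))
    (ℓ := fun v => 2 * δ * s.lG v + 2 * (2 * δ) * s.lα v) (by positivity) []
    (by
      intro w hw
      have hw' := lt_of_lt hs w hw
      have e := e4_node hs hw' hδ good (fun k => hg' k w hw')
      have hκ : ∑ k, ‖s.κ k w‖ = 0 := sum_eq_zero fun k _ => by
        unfold ESys.κ; simp [rA_zero hs hp hw' k]
      have hρ : ∑ k, ‖s.τ k w‖ * ‖s.ρ k w‖ = 0 := sum_eq_zero fun k _ => by
        unfold ESys.ρ; simp [rA_zero hs hp hw' k]
      rw [hκ, hρ] at e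
      have e4e : s.e4 w = (∑ k, if good k w then s.α k w * ‖s.dB k () w‖ ^ 2 else 0)
          + ∑ k, if good k w then 0 else s.α k w * ‖s.τ k w‖ ^ 2 := by
        unfold ESys.e4
        rw [← sum_add_distrib]
        refine sum_congr rfl fun k _ => ?_
        split_ifs
        · rw [α_τ hs hp hw']; ring
        · ring
      rw [e4e] at e
      linarith)
    (fun w _ hw => Φ4_loss hs (lt_of_lt hs w hw) hδ)
    (fun w hw => by
      have := lG_nonneg hs (lt_of_lt hs w hw); have := lα_nonneg s w; positivity)
    (Φ4_nonneg hs (by simpa using hn) hδ)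
    (fun w hw => Φ4'_le hs hδ (by simpa using hw))
  rw [S_loss, S_smul] at key
  have h3 := S_dατ hs
  have h6 := S_lG hs
  have h7 := S_e4_total hs hp hh h1 hm
  have h8 : √(S n s.e1 []) * √(S n s.e4 []) ≤ (2 * h + (32 + 16 * m + 64 * h)) / 2 := by
    have a1 := Real.sq_sqrt (S_e1_nonneg hs)
    have a2 := Real.sq_sqrt (S_e4_nonneg hs)
    nlinarith [sq_nonneg (√(S n s.e1 []) - √(S n s.e4 []))]
  have i1 : 2 * δ * S n s.lG [] ≤ 2 * δ * 2 := by gcongr
  have i2 : 2 * (2 * δ) * S n s.lα [] ≤ 2 * (2 * δ) * m := by gcongr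
  have i3 : 2 * δ * S n (fun v => ∑ k, |s.dα k v| * ‖s.τ k v‖) []
      ≤ 2 * δ * ((2 * h + (32 + 16 * m + 64 * h)) / 2) :=
    mul_le_mul_of_nonneg_left (h3.trans h8) (by positivity)
  linarith

end plain

open Classical in
/-- **T8, use of the core.** -/
theorem t8use {s : ESys K Unit} {n : ℕ} (hs : s.Ok n) (hp : Plain s n) {h m δ C1 ε : ℝ}
    (hδ : 0 ≤ δ) (hh : 0 ≤ h) (hm0 : 0 ≤ m) (hC1 : 0 ≤ C1)
    (h1 : S n s.e1 [] ≤ 2 * h) (hm : S n s.lα [] ≤ m)
    (om : Node → ℝ)
    (hcore : ∀ k w, w.length < n → Seen s δ k w → ∃ y : ℕ → ℝ, (∀ j, 0 ≤ y j) ∧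
      (∀ N, ∑ j ∈ range N, y j ≤ C1) ∧
      ∀ v, w <:+ v → v.length < n → ‖s.dB k () v‖ ≤ y (v.length - w.length) + om v)
    (β : K → Node → ℝ) (hβ0 : ∀ k v, v.length < n → 0 ≤ β k v)
    (hβα : ∀ k v, v.length < n → β k v ≤ s.α k v)
    (hβε : ∀ v, v.length < n → ∑ k, β k v ≤ ε) :
    S n (fun v => ∑ k, β k v * ‖s.dB k () v‖ ^ 2) []
      ≤ δ * (40 + 20 * m + 66 * h) + 2 * C1 ^ 2 * (1 + m) + 2 * ε * S n (fun v => om v ^ 2) [] := by
  -- choice of the profiles
  have hch : ∀ k w, ∃ y : ℕ → ℝ, (∀ j, 0 ≤ y j) ∧ (∀ N, ∑ j ∈ range N, y j ≤ C1) ∧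
      (w.length < n → Seen s δ k w →
        ∀ v, w <:+ v → v.length < n → ‖s.dB k () v‖ ≤ y (v.length - w.length) + om v) := by
    intro k w
    by_cases h : w.length < n ∧ Seen s δ k w
    · obtain ⟨y, a, b, c⟩ := hcore k w h.1 h.2
      exact ⟨y, a, b, fun _ _ => c⟩
    · exact ⟨fun _ => 0, fun _ => le_rfl, fun N => by simpa using hC1, fun a b => absurd ⟨a, b⟩ h⟩
  choose y hy0 hyC hyB using hch
  -- budget
  have hsq : ∀ k w N, ∑ j ∈ range N, y k w j ^ 2 ≤ C1 ^ 2 := by
    intro k w N
    have a : ∑ j ∈ range N, y k w j ^ 2 ≤ (∑ j ∈ range N, y k w j) ^ 2 := by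
      induction N with
      | zero => simp
      | succ N ih =>
        rw [sum_range_succ, sum_range_succ]
        have h1 : 0 ≤ ∑ j ∈ range N, y k w j := sum_nonneg fun j _ => hy0 k w j
        have h2 := mul_nonneg h1 (hy0 k w N)
        nlinarith
    have b := hyC k w N
    have c : 0 ≤ ∑ j ∈ range N, y k w j := sum_nonneg fun j _ => hy0 k w j
    exact a.trans (pow_le_pow_left₀ c b 2)
  let Y : K → Node → ℝ := fun k v => match Ent s δ k v with
    | some w => y k w (v.length - w.length) ^ 2
    | none => 0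
  let ρ : K → Node → ℝ := fun k v => match Ent s δ k v with
    | some w => C1 ^ 2 - ∑ j ∈ range (v.length - w.length), y k w j ^ 2
    | none => C1 ^ 2
  have Ysome : ∀ {k v w}, Ent s δ k v = some w → Y k v = y k w (v.length - w.length) ^ 2 := by
    intro k v w h; simp only [Y, h]
  have Ynone : ∀ {k v}, Ent s δ k v = none → Y k v = 0 := by
    intro k v h; simp only [Y, h]
  have ρsome : ∀ {k v w}, Ent s δ k v = some w →
      ρ k v = C1 ^ 2 - ∑ j ∈ range (v.length - w.length), y k w j ^ 2 := by
    intro k v w h; simp only [ρ, h]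
  have ρnone : ∀ {k v}, Ent s δ k v = none → ρ k v = C1 ^ 2 := by
    intro k v h; simp only [ρ, h]
  have hY : ∀ k v, 0 ≤ Y k v := by
    intro k v
    rcases he : Ent s δ k v with _ | w
    · rw [Ynone he]
    · rw [Ysome he]; exact sq_nonneg _
  have hbud := S_budget hs (C := C1 ^ 2) (m := m) (sq_nonneg _) hm Y ρ hY
    (by
      intro k v
      rcases he : Ent s δ k v with _ | w
      · rw [ρnone he]; positivity
      · rw [ρsome he]; linarith [hsq k w (v.length - w.length)])
    (by
      intro k v
      rcases he : Ent s δ k v with _ | w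
      · rw [ρnone he]
      · rw [ρsome he]
        have : 0 ≤ ∑ j ∈ range (v.length - w.length), y k w j ^ 2 :=
          sum_nonneg fun j _ => sq_nonneg _
        linarith)
    (by
      intro k v b
      rcases he : Ent s δ k v with _ | w
      · rw [Ynone he, ρnone he]
        rcases Ent_cons_none (b := b) he with h' | h'
        · rw [ρnone h']; simp
        · rw [ρsome h']; simp
      · rw [Ysome he, ρsome he, ρsome (Ent_cons_some he)]
        have hle := (Ent_seen he).2.length_le
        have e : (b :: v).length - w.length = (v.length - w.length) + 1 := by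
          simp only [List.length_cons]; omega
        rw [e, sum_range_succ]
        linarith)
  have hlow := S_low hs hp hδ hh hm0 h1 hm (fun k v => Ent s δ k v = none)
    (fun k v _ h => not_seen_of_none h)
  have hle : S n (fun v => ∑ k, β k v * ‖s.dB k () v‖ ^ 2) [] ≤
      S n (fun v => (∑ k, if Ent s δ k v = none then s.α k v * ‖s.dB k () v‖ ^ 2 else 0)
        + (2 * (∑ k, s.α k v * Y k v) + (2 * ε) * om v ^ 2)) [] := by
    refine S_mono n [] fun v hv => ?_
    have hv' := lt_of_lt hs v hv
    have key : ∀ k, β k v * ‖s.dB k () v‖ ^ 2 ≤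
        (if Ent s δ k v = none then s.α k v * ‖s.dB k () v‖ ^ 2 else 0)
          + (2 * (s.α k v * Y k v) + 2 * (β k v * om v ^ 2)) := by
      intro k
      have b0 := hβ0 k v hv'
      have b1 := hβα k v hv'
      rcases he : Ent s δ k v with _ | w
      · rw [if_pos rfl, Ynone he]
        have := mul_le_mul_of_nonneg_right b1 (sq_nonneg ‖s.dB k () v‖)
        have h2 : 0 ≤ β k v * om v ^ 2 := by positivity
        linarith
      · rw [if_neg (by simp), Ysome he, zero_add]
        obtain ⟨hseen, hsuf⟩ := Ent_seen he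
        have hwl : w.length < n := lt_of_le_of_lt hsuf.length_le hv'
        have hB := hyB k w hwl hseen v hsuf hv'
        have hyn := hy0 k w (v.length - w.length)
        have hn0 := norm_nonneg (s.dB k () v)
        have h2 : ‖s.dB k () v‖ ^ 2 ≤ 2 * y k w (v.length - w.length) ^ 2 + 2 * om v ^ 2 := by
          have h3 : ‖s.dB k () v‖ ^ 2 ≤ (y k w (v.length - w.length) + om v) ^ 2 :=
            pow_le_pow_left₀ hn0 hB 2
          nlinarith [sq_nonneg (y k w (v.length - w.length) - om v)]
        have h3 := mul_le_mul_of_nonneg_left h2 b0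
        have h4 := mul_le_mul_of_nonneg_right b1 (sq_nonneg (y k w (v.length - w.length)))
        linarith
    refine (sum_le_sum fun k _ => key k).trans ?_
    rw [sum_add_distrib, sum_add_distrib, ← mul_sum, ← mul_sum, ← sum_mul]
    have := mul_le_mul_of_nonneg_right (hβε v hv') (sq_nonneg (om v))
    linarith
  refine hle.trans ?_
  rw [S_add, S_add, S_smul, S_smul]
  linarith

end Vale.Agent.P091.T8.H655
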