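import Vale.Agent.P091.T8.H655.Letters
import Vale.Agent.P091.H413.Tree

/-!
# P091, row T8, parts (c)+(d) (helper655): lists along the tree, number of additions
-/

set_option autoImplicit false

open Finset Real
open Vale.Agent.P091.H413

noncomputable section

namespace Vale.Agent.P091.T8.H655

section loss
variable {Y : Type*}

/-- removal of a part of the mass (disjoint supports) -/
theorem KLm_remove {m m' w : Y → ℝ} {V : Finset Y} (hm : ∀ y ∈ V, 0 ≤ m y)
    (hw : ∀ y ∈ V, 0 < w y) (h : ∀ y ∈ V, m' y = m y ∨ m' y = 0) :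
    KLm m' w V ≤ KLm m w V + (ms m V - ms m' V) +
      (ms m V - ms m' V) * log (ms m V / (ms m V - ms m' V)) := by
  have hm' : ∀ y ∈ V, 0 ≤ m' y := fun y hy => by
    rcases h y hy with e | e
    · rw [e]; exact hm y hy
    · rw [e]
  have hr : ∀ y ∈ V, 0 ≤ m y - m' y := fun y hy => by
    rcases h y hy with e | e
    · rw [e]; simp
    · rw [e]; simpa using hm y hy
  have hR : 0 ≤ ms m V - ms m' V := by
    unfold ms; rw [← sum_sub_distrib]; exact sum_nonneg hr
  have hM' : 0 ≤ ms m' V := ms_nonneg hm'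
  set r : Y → ℝ := fun y => m y - m' y with hrdef
  have hmr : ms r V = ms m V - ms m' V := by
    unfold ms; rw [← sum_sub_distrib]
  have hsum : ∑ y ∈ V, m y * log (m y / w y)
      = ∑ y ∈ V, m' y * log (m' y / w y) + ∑ y ∈ V, r y * log (r y / w y) := by
    rw [← sum_add_distrib]
    refine sum_congr rfl fun y hy => ?_
    rcases h y hy with e | e
    · simp [hrdef, e]
    · simp [hrdef, e]
  have hKr : 0 ≤ KLm r w V := KLm_nonneg hr hw
  rcases hM'.eq_or_lt with h0 | hM'pos
  · -- everything is removed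
    rw [KLm_of_ms_zero hm' h0.symm, ← h0, sub_zero]
    have h1 := KLm_nonneg hm hw
    have h2 := ms_nonneg hm
    rcases h2.eq_or_lt with h3 | h3
    · rw [← h3]; simp; exact h1
    · rw [div_self h3.ne', log_one]; linarith
  rcases hR.eq_or_lt with h0 | hRpos
  · have e0 : ∀ y ∈ V, r y = 0 := eq_zero_of_ms hr (by rw [hmr]; exact h0.symm)
    have e1 : KLm m' w V = KLm m w V := by
      have e2 : ∀ y ∈ V, m' y = m y := fun y hy => by
        have := e0 y hy; simp only [hrdef] at this; linarith
      unfold KLm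
      rw [sum_congr rfl fun y hy => by rw [e2 y hy]]
      rw [show ms m' V = ms m V from sum_congr rfl e2]
    rw [e1, ← h0]; simp
  have hM : 0 < ms m V := by linarith
  have hV : V.Nonempty := by
    rcases V.eq_empty_or_nonempty with h | h
    · subst h; simp [ms] at hM
    · exact h
  have hW : 0 < ms w V := ms_pos hw hV
  have key : KLm m' w V = KLm m w V - KLm r w V + ms m' V * log (ms m V / ms m' V)
      + (ms m V - ms m' V) * log (ms m V / (ms m V - ms m' V)) := by
    unfold KLm
    rw [hsum, hmr, log_div hW.ne' hM.ne', log_div hW.ne' hM'pos.ne', log_div hW.ne' hRpos.ne',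
      log_div hM.ne' hM'pos.ne', log_div hM.ne' hRpos.ne']
    ring
  have h1 : ms m' V * log (ms m V / ms m' V) ≤ ms m V - ms m' V := by
    have := log_le_sub_one_of_pos (div_pos hM hM'pos)
    have := mul_le_mul_of_nonneg_left this hM'
    rw [mul_sub, mul_div_cancel₀ _ hM'pos.ne', mul_one] at this
    exact this
  rw [key]; linarith

/-- two-block form of the chain rule -/
theorem KLm_union_le {μ w : Y → ℝ} [DecidableEq Y] {V V0 V1 : Finset Y} (hV : V = V1 ∪ V0)
    (hd : Disjoint V1 V0)
    (hμ : ∀ y ∈ V, 0 ≤ μ y) (hw : ∀ y ∈ V, 0 < w y) :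
    KLm μ w V1 + KLm μ w V0 ≤ KLm μ w V := by
  have hms : ∀ g : Y → ℝ, ms g V = ms g V1 + ms g V0 := fun g => by
    unfold ms; rw [hV, sum_union hd]
  have h1 : ∀ y ∈ V1, y ∈ V := fun y hy => hV ▸ mem_union_left _ hy
  have h0 : ∀ y ∈ V0, y ∈ V := fun y hy => hV ▸ mem_union_right _ hy
  -- Gibbs on two points
  have gib := KLm_nonneg (Y := Bool) (μ := fun b => if b then ms μ V1 else ms μ V0)
    (w := fun b => if b then (if V1.Nonempty then ms w V1 else 1)
      else (if V0.Nonempty then ms w V0 else 1)) (V := univ)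
    (by
      intro b _
      cases b
      · exact ms_nonneg fun y hy => hμ y (h0 y hy)
      · exact ms_nonneg fun y hy => hμ y (h1 y hy))
    (by
      intro b _
      cases b
      · by_cases h : V0.Nonempty
        · simp only [Bool.false_eq_true, if_false, h, if_true]
          exact ms_pos (fun y hy => hw y (h0 y hy)) h
        · simp [h]
      · by_cases h : V1.Nonempty
        · simp only [if_true, h]
          exact ms_pos (fun y hy => hw y (h1 y hy)) h
        · simp [h])
  by_cases e1 : V1.Nonempty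
  · by_cases e0 : V0.Nonempty
    · unfold KLm at gib
      unfold KLm
      have hW1 := ms_pos (fun y hy => hw y (h1 y hy)) e1
      have hW0 := ms_pos (fun y hy => hw y (h0 y hy)) e0
      have a1 : ms (fun b : Bool => if b then ms μ V1 else ms μ V0) univ = ms μ V := by
        rw [hms]; simp [ms]
      have a2 : ms (fun b : Bool => if b then (if V1.Nonempty then ms w V1 else 1)
          else (if V0.Nonempty then ms w V0 else 1)) univ = ms w V := by
        rw [hms]; simp [ms, e1, e0]
      rw [a1, a2] at gib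
      simp only [Fintype.sum_bool, if_true, Bool.false_eq_true, if_false, e1, e0] at gib
      have b1 : ms μ V1 * log (ms w V1 / ms μ V1) = - (ms μ V1 * log (ms μ V1 / ms w V1)) := by
        rw [← inv_div, log_inv]; ring
      have b0 : ms μ V0 * log (ms w V0 / ms μ V0) = - (ms μ V0 * log (ms μ V0 / ms w V0)) := by
        rw [← inv_div, log_inv]; ring
      have hs : ∑ y ∈ V, μ y * log (μ y / w y)
          = ∑ y ∈ V1, μ y * log (μ y / w y) + ∑ y ∈ V0, μ y * log (μ y / w y) := by
        rw [hV, sum_union hd]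
      rw [hs, b1, b0]
      linarith
    · rw [not_nonempty_iff_eq_empty] at e0
      subst e0
      have : V = V1 := by rw [hV, union_empty]
      rw [this]
      simp [KLm, ms]
  · rw [not_nonempty_iff_eq_empty] at e1
    subst e1
    have : V = V0 := by rw [hV, empty_union]
    rw [this]
    simp [KLm, ms]

end loss

/-- the y-side of one epoch: blocks `V v`, reference weight `ν` (halved at each step), alive
weights `m v` (only removals, at each node, of sets of points). -/
structure YT (Y : Type*) [DecidableEq Y] (n : ℕ) where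
  V : Node → Finset Y
  ν : Y → ℝ
  m : Node → Y → ℝ
  ν_pos : ∀ y, 0 < ν y
  split : ∀ v, v.length < n → V v = V (true :: v) ∪ V (false :: v)
  disj : ∀ v, v.length < n → Disjoint (V (true :: v)) (V (false :: v))
  half : ∀ v, v.length < n → ∀ b, ms ν (V (b :: v)) = ms ν (V v) / 2
  root_pos : 0 < ms ν (V [])
  m_nonneg : ∀ v y, 0 ≤ m v y
  m_rem : ∀ v, v.length < n → ∀ b, ∀ y ∈ V (b :: v), m (b :: v) y = m v y ∨ m (b :: v) y = 0

namespace YT
variable {Y : Type*} [DecidableEq Y] {n : ℕ} (T : YT Y n)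

theorem sub {v : Node} (hv : v.length < n) (b : Bool) : T.V (b :: v) ⊆ T.V v := by
  rw [T.split v hv]
  cases b
  · exact subset_union_right
  · exact subset_union_left

theorem msν_pos : ∀ v : Node, v.length ≤ n → 0 < ms T.ν (T.V v)
  | [], _ => T.root_pos
  | b :: v, h => by
    have h' : v.length < n := by simpa using h
    rw [T.half v h' b]
    have := msν_pos v h'.le
    linarith

/-- alive density at `v` (departure) -/
def g (v : Node) : ℝ := ms (T.m v) (T.V v) / ms T.ν (T.V v)

/-- alive density at `b :: v` on arrival -/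
def g' : Node → ℝ
  | [] => T.g []
  | b :: v => ms (T.m v) (T.V (b :: v)) / ms T.ν (T.V (b :: v))

/-- mass density removed at a node -/
def R (v : Node) : ℝ := T.g' v - T.g v

/-- the entropy loss caused by the removal at a node -/
def loss (v : Node) : ℝ := T.R v + T.R v * log (T.g' v / T.R v)

theorem g_nonneg (v : Node) (hv : v.length ≤ n) : 0 ≤ T.g v :=
  div_nonneg (ms_nonneg fun y _ => T.m_nonneg v y) (T.msν_pos v hv).le

theorem R_nonneg (v : Node) (hv : v.length ≤ n) : 0 ≤ T.R v := by
  cases v with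
  | nil => simp [R, g']
  | cons b v =>
    have h' : v.length < n := by simpa using hv
    unfold R g' g
    rw [← sub_div]
    refine div_nonneg ?_ (T.msν_pos _ hv).le
    unfold ms
    rw [← sum_sub_distrib]
    refine sum_nonneg fun y hy => ?_
    rcases T.m_rem v h' b y hy with e | e
    · rw [e]; simp
    · rw [e]; simpa using T.m_nonneg v y

theorem g'_cons (b : Bool) (v : Node) :
    T.g' (b :: v) = ms (T.m v) (T.V (b :: v)) / ms T.ν (T.V (b :: v)) := rfl

theorem g'_avg (v : Node) (hv : v.length < n) : (T.g' (true :: v) + T.g' (false :: v)) / 2 = T.g v := by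
  rw [g'_cons, g'_cons, T.half v hv, T.half v hv]
  unfold g
  have h : ms (T.m v) (T.V v) = ms (T.m v) (T.V (true :: v)) + ms (T.m v) (T.V (false :: v)) := by
    unfold ms
    conv_lhs => rw [T.split v hv]
    rw [sum_union (T.disj v hv)]
  have := (T.msν_pos v hv.le).ne'
  rw [h]
  field_simp

/-- total removed mass -/
theorem S_R_le (k : ℕ) (v : Node) (h : k + v.length ≤ n) : S (k + 1) T.R v ≤ T.g' v := by
  induction k generalizing v with
  | zero =>
    simp only [S]
    have := T.g_nonneg v (by omega)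
    unfold R
    linarith
  | succ k ih =>
    have h1 := ih (true :: v) (by simp only [List.length_cons]; omega)
    have h2 := ih (false :: v) (by simp only [List.length_cons]; omega)
    have h3 := T.g'_avg v (by omega)
    have e : S (k + 1 + 1) T.R v
        = T.R v + (S (k + 1) T.R (true :: v) + S (k + 1) T.R (false :: v)) / 2 := rfl
    rw [e]
    have : T.R v = T.g' v - T.g v := rfl
    linarith

end YT

namespace Chr
variable {Γ Y : Type*} [AddCommGroup Γ] (E : Chr Γ Y) [DecidableEq Y] {n : ℕ}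

/-- lists along the tree -/
structure Lists (T : YT Y n) (d δ η γ : ℝ) (Sset : Node → Set Γ) where
  N : Node → List (Γ × ℂ)
  L : Node → List (Γ × ℂ)
  root : L [] = N []
  child : ∀ b v, L (b :: v) = N (b :: v) ++ L v
  ph : ∀ v, Ph (L v)
  memS : ∀ v, ∀ a ∈ N v, a.1 ∈ Sset v
  complete : ∀ v, v.length ≤ n → 0 < ms (T.m v) (T.V v) →
    E.Complete d δ η (Sset v) (T.m v) T.ν (T.V v) (L v)
  drop_root : KLm (T.m []) (fun y => T.ν y * E.riesz d (L []) y) (T.V [])
    + ms (T.m []) (T.V []) * (γ * (N []).length) ≤ KLm (T.m []) T.ν (T.V [])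
  drop : ∀ b v, KLm (T.m (b :: v)) (fun y => T.ν y * E.riesz d (L (b :: v)) y) (T.V (b :: v))
    + ms (T.m (b :: v)) (T.V (b :: v)) * (γ * (N (b :: v)).length)
    ≤ KLm (T.m (b :: v)) (fun y => T.ν y * E.riesz d (L v) y) (T.V (b :: v))

/-- one step: a completion (or nothing if the alive mass is zero) -/
theorem exists_step (T : YT Y n) {d δ η γ : ℝ} (Sset : Node → Set Γ) (hd0 : 0 ≤ d) (hd : d ≤ 1 / 2)
    (hγ : 0 < γ) (hγ' : γ ≤ d * δ - 2 * d ^ 2 - d * η) (v : Node) (L : List (Γ × ℂ)) (hL : Ph L) :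
    ∃ N : List (Γ × ℂ), Ph N ∧ (∀ a ∈ N, a.1 ∈ Sset v) ∧
      (0 < ms (T.m v) (T.V v) → E.Complete d δ η (Sset v) (T.m v) T.ν (T.V v) (N ++ L)) ∧
      KLm (T.m v) (fun y => T.ν y * E.riesz d (N ++ L) y) (T.V v)
        + ms (T.m v) (T.V v) * (γ * N.length)
        ≤ KLm (T.m v) (fun y => T.ν y * E.riesz d L y) (T.V v) := by
  by_cases h : 0 < ms (T.m v) (T.V v)
  · obtain ⟨N, h1, h2, h3, h4⟩ := E.exists_complete (S := Sset v) (μ := T.m v) (ν := T.ν)
      (V := T.V v) (fun y _ => T.m_nonneg v y) (fun y _ => T.ν_pos y) h hd0 hd hγ hγ' L hL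
    exact ⟨N, h1, h2, fun _ => h3, h4⟩
  · exact ⟨[], fun a ha => by simp at ha, fun a ha => by simp at ha, fun h' => absurd h' h,
      by simp⟩

/-- **existence of the lists** -/
theorem exists_lists (T : YT Y n) {d δ η γ : ℝ} (Sset : Node → Set Γ) (hd0 : 0 ≤ d)
    (hd : d ≤ 1 / 2) (hγ : 0 < γ) (hγ' : γ ≤ d * δ - 2 * d ^ 2 - d * η) :
    Nonempty (E.Lists T d δ η γ Sset) := by
  classical
  -- the step as a function
  let st : Node → {L : List (Γ × ℂ) // Ph L} → List (Γ × ℂ) := fun v L =>
    (E.exists_step T Sset hd0 hd hγ hγ' v L.1 L.2).choose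
  have st_spec : ∀ v (L : {L : List (Γ × ℂ) // Ph L}), Ph (st v L) ∧ (∀ a ∈ st v L, a.1 ∈ Sset v) ∧
      (0 < ms (T.m v) (T.V v) → E.Complete d δ η (Sset v) (T.m v) T.ν (T.V v) (st v L ++ L.1)) ∧
      KLm (T.m v) (fun y => T.ν y * E.riesz d (st v L ++ L.1) y) (T.V v)
        + ms (T.m v) (T.V v) * (γ * (st v L).length)
        ≤ KLm (T.m v) (fun y => T.ν y * E.riesz d L.1 y) (T.V v) := fun v L =>
    (E.exists_step T Sset hd0 hd hγ hγ' v L.1 L.2).choose_spec
  have ph_app : ∀ {A B : List (Γ × ℂ)}, Ph A → Ph B → Ph (A ++ B) := by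
    intro A B hA hB a ha
    rcases List.mem_append.1 ha with h | h
    · exact hA a h
    · exact hB a h
  let Lf : Node → {L : List (Γ × ℂ) // Ph L} := fun v => List.rec
    (⟨st [] ⟨[], fun a ha => by simp at ha⟩ ++ [],
      ph_app (st_spec [] ⟨[], fun a ha => by simp at ha⟩).1 (fun a ha => by simp at ha)⟩)
    (fun b v L => ⟨st (b :: v) L ++ L.1, ph_app (st_spec (b :: v) L).1 L.2⟩) v
  let Nf : Node → List (Γ × ℂ) := fun v => match v with
    | [] => st [] ⟨[], fun a ha => by simp at ha⟩
    | b :: v => st (b :: v) (Lf v)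
  refine ⟨{ N := Nf, L := fun v => (Lf v).1, root := ?_, child := ?_, ph := fun v => (Lf v).2,
            memS := ?_, complete := ?_, drop_root := ?_, drop := ?_ }⟩
  · exact List.append_nil _
  · intro b v; rfl
  · intro v
    cases v with
    | nil => exact (st_spec [] _).2.1
    | cons b v => exact (st_spec (b :: v) (Lf v)).2.1
  · intro v _ hm
    cases v with
    | nil => exact (st_spec [] _).2.2.1 hm
    | cons b v => exact (st_spec (b :: v) (Lf v)).2.2.1 hm
  · have := (st_spec [] ⟨[], fun a ha => by simp at ha⟩).2.2.2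
    simp only [riesz_nil, mul_one] at this
    exact this
  · intro b v
    exact (st_spec (b :: v) (Lf v)).2.2.2

namespace Lists
variable {E} {T : YT Y n} {d δ η γ : ℝ} {Sset : Node → Set Γ} (ℒ : E.Lists T d δ η γ Sset)

/-- the list before the additions at the node -/
def prev : Node → List (Γ × ℂ)
  | [] => []
  | _ :: v => ℒ.L v

/-- potential after removal, before additions -/
def Ψ (v : Node) : ℝ :=
  KLm (T.m v) (fun y => T.ν y * E.riesz d (ℒ.prev v) y) (T.V v) / ms T.ν (T.V v)

/-- **(c)**: expected number of additions below a node -/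
theorem S_add_le (hd0 : 0 ≤ d) (hd : d ≤ 1 / 2) (k : ℕ) (v : Node) (hkv : k + v.length ≤ n) :
    γ * S (k + 1) (fun v => T.g v * (ℒ.N v).length) v
      ≤ ℒ.Ψ v + (S (k + 1) T.loss v - T.loss v) := by
  have hpos : ∀ L : List (Γ × ℂ), Ph L → ∀ y, 0 < T.ν y * E.riesz d L y := fun L hL y =>
    mul_pos (T.ν_pos y) (E.riesz_pos hd0 hd hL y)
  have hprev : ∀ v, Ph (ℒ.prev v) := fun v => by
    cases v with
    | nil => intro a ha; simp [prev] at ha
    | cons b v => exact ℒ.ph v
  have hΨ : ∀ v, v.length ≤ n → 0 ≤ ℒ.Ψ v := fun v hv =>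
    div_nonneg (KLm_nonneg (fun y _ => T.m_nonneg v y) (fun y _ => hpos _ (hprev v) y))
      (T.msν_pos v hv).le
  -- departure potential
  have hdep : ∀ v, v.length ≤ n →
      0 ≤ KLm (T.m v) (fun y => T.ν y * E.riesz d (ℒ.L v) y) (T.V v) / ms T.ν (T.V v) :=
    fun v hv => div_nonneg (KLm_nonneg (fun y _ => T.m_nonneg v y) (fun y _ => hpos _ (ℒ.ph v) y))
      (T.msν_pos v hv).le
  have hdrop : ∀ v, v.length ≤ n →
      KLm (T.m v) (fun y => T.ν y * E.riesz d (ℒ.L v) y) (T.V v) / ms T.ν (T.V v)
      + γ * (T.g v * (ℒ.N v).length) ≤ ℒ.Ψ v := by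
    intro v hv
    have h0 := T.msν_pos v hv
    unfold Ψ YT.g
    rw [le_div_iff₀ h0, add_mul, div_mul_cancel₀ _ h0.ne']
    have e : γ * (ms (T.m v) (T.V v) / ms T.ν (T.V v) * (ℒ.N v).length) * ms T.ν (T.V v)
        = ms (T.m v) (T.V v) * (γ * (ℒ.N v).length) := by field_simp
    rw [e]
    cases v with
    | nil =>
      have := ℒ.drop_root
      simpa [prev] using this
    | cons b v => exact ℒ.drop b v
  -- one step down
  have hstep : ∀ v, v.length < n →
      (ℒ.Ψ (true :: v) + ℒ.Ψ (false :: v)) / 2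
        ≤ KLm (T.m v) (fun y => T.ν y * E.riesz d (ℒ.L v) y) (T.V v) / ms T.ν (T.V v)
          + (T.loss (true :: v) + T.loss (false :: v)) / 2 := by
    intro v hv
    have h0 := T.msν_pos v hv.le
    have hb : ∀ b : Bool, ℒ.Ψ (b :: v) ≤
        2 * (KLm (T.m v) (fun y => T.ν y * E.riesz d (ℒ.L v) y) (T.V (b :: v)) / ms T.ν (T.V v))
          + T.loss (b :: v) := by
      intro b
      have h1 := T.msν_pos (b :: v) (by simp only [List.length_cons]; omega)
      have key := KLm_remove (m := T.m v) (m' := T.m (b :: v))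
        (w := fun y => T.ν y * E.riesz d (ℒ.L v) y) (V := T.V (b :: v))
        (fun y _ => T.m_nonneg v y) (fun y _ => hpos _ (ℒ.ph v) y) (T.m_rem v hv b)
      have eR : T.R (b :: v) = (ms (T.m v) (T.V (b :: v)) - ms (T.m (b :: v)) (T.V (b :: v)))
          / ms T.ν (T.V (b :: v)) := by
        unfold YT.R YT.g; rw [YT.g'_cons, sub_div]
      have eQ : T.g' (b :: v) / T.R (b :: v) = ms (T.m v) (T.V (b :: v)) /
          (ms (T.m v) (T.V (b :: v)) - ms (T.m (b :: v)) (T.V (b :: v))) := by
        rw [eR, YT.g'_cons]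
        rw [div_div_div_cancel_right₀ h1.ne']
      have e1 : 2 * (KLm (T.m v) (fun y => T.ν y * E.riesz d (ℒ.L v) y) (T.V (b :: v))
            / ms T.ν (T.V v))
          = KLm (T.m v) (fun y => T.ν y * E.riesz d (ℒ.L v) y) (T.V (b :: v))
            / ms T.ν (T.V (b :: v)) := by
        rw [T.half v hv b]; field_simp
      rw [e1]
      unfold YT.loss
      rw [eQ, eR]
      have := div_le_div_of_nonneg_right key h1.le
      rw [add_div, add_div] at this
      have e2 : ℒ.Ψ (b :: v) = KLm (T.m (b :: v)) (fun y => T.ν y * E.riesz d (ℒ.L v) y)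
          (T.V (b :: v)) / ms T.ν (T.V (b :: v)) := rfl
      rw [e2]
      refine this.trans (le_of_eq ?_)
      ring
    have h2 := hb true
    have h3 := hb false
    have h4 := KLm_union_le (μ := T.m v) (w := fun y => T.ν y * E.riesz d (ℒ.L v) y)
      (T.split v hv) (T.disj v hv) (fun y _ => T.m_nonneg v y) (fun y _ => hpos _ (ℒ.ph v) y)
    have h5 := div_le_div_of_nonneg_right h4 h0.le
    rw [add_div] at h5
    linarith
  induction k generalizing v with
  | zero =>
    simp only [S]
    have h1 := hdrop v (by omega)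
    have h2 := hdep v (by omega)
    linarith
  | succ k ih =>
    have h1 := ih (true :: v) (by simp only [List.length_cons]; omega)
    have h2 := ih (false :: v) (by simp only [List.length_cons]; omega)
    have h3 := hdrop v (by omega)
    have h4 := hstep v (by omega)
    have e1 : S (k + 1 + 1) (fun v => T.g v * (ℒ.N v).length) v
        = T.g v * (ℒ.N v).length + (S (k + 1) (fun v => T.g v * (ℒ.N v).length) (true :: v)
          + S (k + 1) (fun v => T.g v * (ℒ.N v).length) (false :: v)) / 2 := rfl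
    have e2 : S (k + 1 + 1) T.loss v = T.loss v
        + (S (k + 1) T.loss (true :: v) + S (k + 1) T.loss (false :: v)) / 2 := rfl
    rw [e1, e2]
    linarith

end Lists

end Chr

end Vale.Agent.P091.T8.H655
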