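import Vale.Agent.P091.T.Props

/-! # P091, row T8: parameters (`D → ∞`) -/

namespace Vale.Agent.P091.T8.H655

open Finset Filter Vale.Agent.P091.T

theorem ll_le_log : ∀ᶠ D : ℝ in atTop, (ll D : ℝ) ≤ Real.log D := by
  have h1 : ∀ᶠ x : ℝ in atTop, 2 * Real.logb 2 x + 2 ≤ x := by
    have h2 : 0 < Real.log 2 := Real.log_pos (by norm_num)
    have h := Real.isLittleO_log_id_atTop.bound (show 0 < Real.log 2 / 8 by positivity)
    filter_upwards [h, eventually_ge_atTop (8 : ℝ)] with x hx hx8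
    have hlog : 0 ≤ Real.log x := Real.log_nonneg (by linarith)
    rw [Real.norm_of_nonneg hlog, id, Real.norm_of_nonneg (by linarith)] at hx
    have h3 : Real.logb 2 x ≤ x / 8 := by
      unfold Real.logb
      rw [div_le_iff₀ h2]
      linarith
    linarith
  have h2 : ∀ᶠ D : ℝ in atTop, 2 * Real.logb 2 (Real.log D) + 2 ≤ Real.log D :=
    Real.tendsto_log_atTop.eventually h1
  have h3 : ∀ᶠ D : ℝ in atTop, 1 ≤ Real.log D :=
    Real.tendsto_log_atTop.eventually (eventually_ge_atTop 1)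
  filter_upwards [h2, h3] with D hD hD1
  have h4 : 0 ≤ 2 * Real.logb 2 (Real.log D) := by
    have := Real.logb_nonneg (b := 2) (by norm_num) hD1
    linarith
  have h5 := Nat.ceil_lt_add_one h4
  unfold ll
  push_cast
  linarith

theorem ev_pow (m : ℕ) (c : ℝ) : ∀ᶠ D : ℝ in atTop, c * (ll D : ℝ) ^ m ≤ D := by
  have h := (Real.isLittleO_pow_log_id_atTop (n := m)).bound
    (show 0 < 1 / (|c| + 1) by positivity)
  filter_upwards [h, ll_le_log, eventually_ge_atTop (1 : ℝ)] with D hD hl hD1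
  have hlog : 0 ≤ Real.log D := Real.log_nonneg hD1
  rw [Real.norm_of_nonneg (by positivity), id, Real.norm_of_nonneg (by linarith)] at hD
  have h1 : (ll D : ℝ) ^ m ≤ Real.log D ^ m := pow_le_pow_left₀ (Nat.cast_nonneg _) hl m
  have h2 : (|c| + 1) * Real.log D ^ m ≤ D := by
    have h3 : 0 < |c| + 1 := by positivity
    have := mul_le_mul_of_nonneg_left hD h3.le
    rwa [← mul_assoc, mul_one_div_cancel h3.ne', one_mul] at this
  have h4 : c * (ll D : ℝ) ^ m ≤ (|c| + 1) * Real.log D ^ m := by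
    have a : c ≤ |c| + 1 := (le_abs_self c).trans (by linarith)
    exact mul_le_mul a h1 (by positivity) (by positivity)
  exact h4.trans h2

theorem ev_ll (c : ℝ) : ∀ᶠ D : ℝ in atTop, c ≤ (ll D : ℝ) := by
  have h1 : Tendsto (fun D : ℝ => 2 * Real.logb 2 (Real.log D)) atTop atTop := by
    refine Tendsto.const_mul_atTop (by norm_num) ?_
    exact (Real.tendsto_logb_atTop (by norm_num)).comp Real.tendsto_log_atTop
  filter_upwards [h1.eventually (eventually_ge_atTop c)] with D hD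
  unfold ll
  push_cast
  have := Nat.le_ceil (2 * Real.logb 2 (Real.log D))
  linarith

theorem ev_exp (c : ℝ) : ∀ᶠ D : ℝ in atTop, c * D ^ 15 ≤ Real.exp (√D) := by
  have h1 : Tendsto (fun x : ℝ => x ^ 30 * Real.exp (-x)) atTop (nhds 0) :=
    Real.tendsto_pow_mul_exp_neg_atTop_nhds_zero 30
  have h2 : ∀ᶠ x : ℝ in atTop, x ^ 30 * Real.exp (-x) < 1 / (|c| + 1) :=
    h1.eventually (gt_mem_nhds (by positivity))
  have h3 := Real.tendsto_sqrt_atTop.eventually h2
  filter_upwards [h3, eventually_ge_atTop (0 : ℝ)] with D hD hD0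
  have e1 : √D ^ 30 = D ^ 15 := by
    have : √D ^ 30 = (√D ^ 2) ^ 15 := by ring
    rw [this, Real.sq_sqrt hD0]
  rw [e1, Real.exp_neg] at hD
  have h5 : 0 < Real.exp (√D) := Real.exp_pos _
  have h6 : 0 < |c| + 1 := by positivity
  rw [← div_eq_mul_inv, div_lt_div_iff₀ h5 h6, one_mul] at hD
  have h7 : c * D ^ 15 ≤ D ^ 15 * (|c| + 1) := by
    rw [mul_comm]
    exact mul_le_mul_of_nonneg_left ((le_abs_self c).trans (by linarith)) (by positivity)
  linarith


theorem fin_arith {C C1 D l N : ℝ} (hC : 0 < C) (hC1 : 0 ≤ C1) (hD : 1 ≤ D) (hl2 : 2 ≤ l)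
    (c1 : 16 * C * (3 + C1) ≤ l) (c2 : 16 * C * l ^ 41 ≤ D) (c3 : l ^ 21 ≤ D)
    (c4 : 1 + 10 * l ≤ D) (c5 : l ^ 20 ≤ D) (c6 : l ^ 4 ≤ D)
    (c7 : 53136 * C * D ^ 15 ≤ Real.exp (√D)) (c8 : 48 * C * (3 + C1) * l ^ 83 ≤ D)
    (hN1 : D ^ 3 ≤ N) (hN2 : N ≤ D ^ 3 + 1) :
    4 * (C * (1 / l ^ 21 * (1 + (C1 * D + 2)) + 1 / (1 / l ^ 21)
          + Real.exp (-(D / l ^ 2)) * ((N + Real.log (1 / (2 * (1 / l ^ 21)))) ^ 3 *
              (2 * D + (1 + 10 * Real.log l) + N * Real.log (20 * (N + 1))))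
          + (1 + (C1 * D + 2)) * ((2 * D + (1 + 10 * Real.log l)) / ((1 / l ^ 21) ^ 3 * N))))
      ≤ D / l ^ 20 := by
  have hl : 0 < l := by linarith
  have hD0 : 0 < D := by linarith
  have hD3 : 1 ≤ D ^ 3 := one_le_pow₀ hD
  have hNpos : 0 < N := by linarith
  have hhD : 1 + (C1 * D + 2) ≤ (3 + C1) * D := by nlinarith
  have hll : 0 ≤ Real.log l := Real.log_nonneg (by linarith)
  have hlle : Real.log l ≤ l := (Real.log_le_sub_one_of_pos hl).trans (by linarith)
  have hE : 2 * D + (1 + 10 * Real.log l) ≤ 3 * D := by linarith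
  -- T1
  have t1 : 4 * (C * (1 / l ^ 21 * (1 + (C1 * D + 2)))) ≤ D / l ^ 20 / 4 := by
    have a : 4 * (C * (1 / l ^ 21 * (1 + (C1 * D + 2))))
        ≤ 4 * (C * (1 / l ^ 21 * ((3 + C1) * D))) := by gcongr
    have b : 4 * (C * (1 / l ^ 21 * ((3 + C1) * D))) = (16 * C * (3 + C1)) * (D / l ^ 21 / 4) := by
      field_simp; ring
    have c : (16 * C * (3 + C1)) * (D / l ^ 21 / 4) ≤ l * (D / l ^ 21 / 4) :=
      mul_le_mul_of_nonneg_right c1 (by positivity)
    have d : l * (D / l ^ 21 / 4) = D / l ^ 20 / 4 := by field_simp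
    linarith
  have t2 : 4 * (C * (1 / (1 / l ^ 21))) ≤ D / l ^ 20 / 4 := by
    rw [one_div_one_div, div_div, le_div_iff₀ (by positivity)]
    calc 4 * (C * l ^ 21) * (l ^ 20 * 4) = 16 * C * l ^ 41 := by ring
      _ ≤ D := c2
  have hq : 1 / 4 ≤ D / l ^ 20 / 4 := by
    have : 1 ≤ D / l ^ 20 := by rw [le_div_iff₀ (by positivity)]; linarith
    linarith
  have t3 : 4 * (C * (Real.exp (-(D / l ^ 2)) * ((N + Real.log (1 / (2 * (1 / l ^ 21)))) ^ 3 *
              (2 * D + (1 + 10 * Real.log l) + N * Real.log (20 * (N + 1)))))) ≤ D / l ^ 20 / 4 := by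
    have e0 : 1 / (2 * (1 / l ^ 21)) = l ^ 21 / 2 := by field_simp
    have e1 : Real.log (1 / (2 * (1 / l ^ 21))) ≤ D := by
      rw [e0]
      have h := Real.log_le_sub_one_of_pos (show 0 < l ^ 21 / 2 by positivity)
      linarith
    have e1' : 0 ≤ Real.log (1 / (2 * (1 / l ^ 21))) := by
      rw [e0]
      apply Real.log_nonneg
      have : (2 : ℝ) ^ 21 ≤ l ^ 21 := pow_le_pow_left₀ (by norm_num) hl2 21
      norm_num at this
      linarith
    have hDD3 : D ≤ D ^ 3 := by nlinarith [mul_nonneg hD0.le (sub_nonneg.2 hD), sq_nonneg (D - 1)]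
    have e2 : (N + Real.log (1 / (2 * (1 / l ^ 21)))) ^ 3 ≤ (3 * D ^ 3) ^ 3 :=
      pow_le_pow_left₀ (by linarith) (by linarith) 3
    have e3 : Real.log (20 * (N + 1)) ≤ 60 * D ^ 3 := by
      have h := Real.log_le_sub_one_of_pos (show 0 < 20 * (N + 1) by linarith)
      linarith
    have e3' : 0 ≤ Real.log (20 * (N + 1)) := Real.log_nonneg (by linarith)
    have e4 : N * Real.log (20 * (N + 1)) ≤ (2 * D ^ 3) * (60 * D ^ 3) :=
      mul_le_mul (by linarith) e3 e3' (by positivity)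
    have hD6 : D ≤ D ^ 6 := by
      have : D ^ 3 ≤ D ^ 6 := pow_le_pow_right₀ hD (by norm_num)
      linarith
    have e5 : 2 * D + (1 + 10 * Real.log l) + N * Real.log (20 * (N + 1)) ≤ 123 * D ^ 6 := by
      have : (2 * D ^ 3) * (60 * D ^ 3) = 120 * D ^ 6 := by ring
      linarith
    have e5' : 0 ≤ 2 * D + (1 + 10 * Real.log l) + N * Real.log (20 * (N + 1)) := by positivity
    have e6 : (N + Real.log (1 / (2 * (1 / l ^ 21)))) ^ 3 *
              (2 * D + (1 + 10 * Real.log l) + N * Real.log (20 * (N + 1)))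
        ≤ (3 * D ^ 3) ^ 3 * (123 * D ^ 6) := mul_le_mul e2 e5 e5' (by positivity)
    have e7 : (3 * D ^ 3) ^ 3 * (123 * D ^ 6) = 3321 * D ^ 15 := by ring
    have e8 : √D ≤ D / l ^ 2 := by
      rw [le_div_iff₀ (by positivity)]
      have h1 : l ^ 2 ≤ √D := by
        apply Real.le_sqrt_of_sq_le
        calc (l ^ 2) ^ 2 = l ^ 4 := by ring
          _ ≤ D := c6
      calc √D * l ^ 2 ≤ √D * √D := by gcongr
        _ = D := Real.mul_self_sqrt hD0.le
    have e9 : Real.exp (-(D / l ^ 2)) ≤ Real.exp (-√D) := Real.exp_le_exp.2 (by linarith)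
    have e10 : Real.exp (-(D / l ^ 2)) * ((N + Real.log (1 / (2 * (1 / l ^ 21)))) ^ 3 *
              (2 * D + (1 + 10 * Real.log l) + N * Real.log (20 * (N + 1))))
        ≤ Real.exp (-√D) * (3321 * D ^ 15) := by
      rw [← e7]
      exact mul_le_mul e9 e6 (by positivity) (Real.exp_pos _).le
    have e11 : 4 * (C * (Real.exp (-√D) * (3321 * D ^ 15))) ≤ 1 / 4 := by
      rw [Real.exp_neg]
      have hp := Real.exp_pos (√D)
      have : 4 * (C * ((Real.exp (√D))⁻¹ * (3321 * D ^ 15)))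
          = (53136 * C * D ^ 15) / Real.exp (√D) / 4 := by field_simp; ring
      rw [this]
      have h2 : (53136 * C * D ^ 15) / Real.exp (√D) ≤ 1 := by
        rw [div_le_one hp]; exact c7
      linarith
    have e12 : 4 * (C * (Real.exp (-(D / l ^ 2)) * ((N + Real.log (1 / (2 * (1 / l ^ 21)))) ^ 3 *
              (2 * D + (1 + 10 * Real.log l) + N * Real.log (20 * (N + 1))))))
        ≤ 4 * (C * (Real.exp (-√D) * (3321 * D ^ 15))) :=
      mul_le_mul_of_nonneg_left (mul_le_mul_of_nonneg_left e10 hC.le) (by norm_num)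
    linarith
  have t4 : 4 * (C * ((1 + (C1 * D + 2)) * ((2 * D + (1 + 10 * Real.log l)) /
      ((1 / l ^ 21) ^ 3 * N)))) ≤ D / l ^ 20 / 4 := by
    have a : (2 * D + (1 + 10 * Real.log l)) / ((1 / l ^ 21) ^ 3 * N)
        ≤ 3 * D / ((1 / l ^ 21) ^ 3 * D ^ 3) := by gcongr
    have b : (1 + (C1 * D + 2)) * ((2 * D + (1 + 10 * Real.log l)) / ((1 / l ^ 21) ^ 3 * N))
        ≤ ((3 + C1) * D) * (3 * D / ((1 / l ^ 21) ^ 3 * D ^ 3)) :=
      mul_le_mul hhD a (by positivity) (by positivity)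
    have c : 4 * (C * (((3 + C1) * D) * (3 * D / ((1 / l ^ 21) ^ 3 * D ^ 3))))
        = (48 * C * (3 + C1) * l ^ 83) * (1 / (D * l ^ 20)) / 4 := by field_simp; ring
    have d : (48 * C * (3 + C1) * l ^ 83) * (1 / (D * l ^ 20)) / 4
        ≤ D * (1 / (D * l ^ 20)) / 4 := by gcongr
    have e : D * (1 / (D * l ^ 20)) / 4 = 1 / l ^ 20 / 4 := by field_simp
    have f : 1 / l ^ 20 / 4 ≤ D / l ^ 20 / 4 := by gcongr
    have g : 4 * (C * ((1 + (C1 * D + 2)) * ((2 * D + (1 + 10 * Real.log l)) /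
      ((1 / l ^ 21) ^ 3 * N)))) ≤ 4 * (C * (((3 + C1) * D) * (3 * D / ((1 / l ^ 21) ^ 3 * D ^ 3)))) :=
      mul_le_mul_of_nonneg_left (mul_le_mul_of_nonneg_left b hC.le) (by norm_num)
    linarith
  linarith

end Vale.Agent.P091.T8.H655
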