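import Vale.Agent.P091.T8.H655.Riesz

/-!
# P091, row T8, parts (c)+(d) (helper655): letters, Riesz products, completion at a node
-/

set_option autoImplicit false

open Finset Real

noncomputable section

namespace Vale.Agent.P091.T8.H655

/-- a group of letters acting as unimodular characters on the points `Y` -/
structure Chr (Γ Y : Type*) [AddCommGroup Γ] where
  e : Γ → Y → ℂ
  e_add : ∀ k l y, e (k + l) y = e k y * e l y
  norm_e : ∀ k y, ‖e k y‖ = 1

namespace Chr
variable {Γ Y : Type*} [AddCommGroup Γ] (E : Chr Γ Y)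

theorem e_ne (k : Γ) (y : Y) : E.e k y ≠ 0 := by
  intro h
  have := E.norm_e k y
  rw [h, norm_zero] at this
  exact zero_ne_one this

theorem e_zero (y : Y) : E.e 0 y = 1 := by
  have h := E.e_add 0 0 y
  rw [add_zero] at h
  have h' : E.e 0 y * E.e 0 y = E.e 0 y * 1 := by rw [← h, mul_one]
  exact mul_left_cancel₀ (E.e_ne 0 y) h'

theorem e_neg (k : Γ) (y : Y) : E.e (-k) y = (starRingEnd ℂ) (E.e k y) := by
  have h : E.e k y * E.e (-k) y = 1 := by
    rw [← E.e_add, add_neg_cancel, e_zero]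
  have h2 : E.e k y * (starRingEnd ℂ) (E.e k y) = 1 := by
    rw [Complex.mul_conj, Complex.normSq_eq_norm_sq, E.norm_e]; norm_num
  exact mul_left_cancel₀ (E.e_ne k y) (h.trans h2.symm)

theorem e_sub (k l : Γ) (y : Y) : E.e (k - l) y = E.e k y * (starRingEnd ℂ) (E.e l y) := by
  rw [sub_eq_add_neg, E.e_add, e_neg]

/-- the real letter with a phase -/
def X (a : Γ × ℂ) (y : Y) : ℝ := (a.2 * E.e a.1 y).re

theorem abs_X_le {a : Γ × ℂ} (ha : ‖a.2‖ ≤ 1) (y : Y) : |E.X a y| ≤ 1 := by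
  refine (Complex.abs_re_le_norm _).trans ?_
  rw [norm_mul, E.norm_e, mul_one]; exact ha

/-- Riesz product of a list of letters (with phases) -/
def riesz (d : ℝ) (L : List (Γ × ℂ)) (y : Y) : ℝ := (L.map fun a => 1 + d * E.X a y).prod

@[simp] theorem riesz_nil (d : ℝ) (y : Y) : E.riesz d [] y = 1 := rfl

@[simp] theorem riesz_cons (d : ℝ) (a : Γ × ℂ) (L : List (Γ × ℂ)) (y : Y) :
    E.riesz d (a :: L) y = (1 + d * E.X a y) * E.riesz d L y := by
  simp [riesz]

/-- all phases have modulus at most one -/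
def Ph (L : List (Γ × ℂ)) : Prop := ∀ a ∈ L, ‖a.2‖ ≤ 1

theorem one_add_pos {d : ℝ} (hd0 : 0 ≤ d) (hd : d ≤ 1 / 2) {a : Γ × ℂ} (ha : ‖a.2‖ ≤ 1) (y : Y) :
    1 - d ≤ 1 + d * E.X a y ∧ 1 + d * E.X a y ≤ 1 + d ∧ 0 < 1 + d * E.X a y := by
  have := abs_le.1 (E.abs_X_le ha y)
  refine ⟨?_, ?_, ?_⟩ <;> nlinarith

theorem riesz_pos {d : ℝ} (hd0 : 0 ≤ d) (hd : d ≤ 1 / 2) :
    ∀ {L : List (Γ × ℂ)}, Ph L → ∀ y, 0 < E.riesz d L y
  | [], _, y => by simp
  | a :: L, h, y => by
    rw [riesz_cons]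
    exact mul_pos (E.one_add_pos hd0 hd (h a List.mem_cons_self) y).2.2
      (riesz_pos hd0 hd (fun b hb => h b (List.mem_cons_of_mem _ hb)) y)

/-- combinations with coefficients `-1, 0, 1` -/
def Sp : List (Γ × ℂ) → Set Γ
  | [] => {0}
  | a :: L => {r | r ∈ Sp L ∨ r - a.1 ∈ Sp L ∨ r + a.1 ∈ Sp L}

/-- Fourier sum of a weight on `V` -/
def ft (w : Y → ℝ) (V : Finset Y) (k : Γ) : ℂ := ∑ y ∈ V, (w y : ℂ) * E.e k y

theorem norm_ft_le {w : Y → ℝ} {V : Finset Y} (hw : ∀ y ∈ V, 0 ≤ w y) (k : Γ) :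
    ‖E.ft w V k‖ ≤ ms w V := by
  refine (norm_sum_le _ _).trans (le_of_eq (sum_congr rfl fun y hy => ?_))
  rw [norm_mul, E.norm_e, mul_one, Complex.norm_real, norm_of_nonneg (hw y hy)]

/-- **completion step, expansion side** (d): a letter which is `η`-visible for the Riesz weight
is visible for the plain weight after adding a combination of the list. -/
theorem exists_sp {d : ℝ} (hd0 : 0 ≤ d) (hd : d ≤ 1 / 2) {w : Y → ℝ} {V : Finset Y}
    (hw : ∀ y ∈ V, 0 ≤ w y) :
    ∀ (L : List (Γ × ℂ)), Ph L → ∀ (k : Γ) (c : ℝ), 0 ≤ c →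
      c * ms (fun y => w y * E.riesz d L y) V < ‖E.ft (fun y => w y * E.riesz d L y) V k‖ →
      ∃ r ∈ Sp L, c * ((1 - d) / (1 + d)) ^ L.length * ms w V < ‖E.ft w V (k + r)‖
  | [], _, k, c, _, h => by
    refine ⟨0, rfl, ?_⟩
    simpa using h
  | a :: L, hL, k, c, hc, h => by
    have ha := hL a List.mem_cons_self
    have hL' : Ph L := fun b hb => hL b (List.mem_cons_of_mem _ hb)
    set w' : Y → ℝ := fun y => w y * E.riesz d L y with hw'
    have hw'0 : ∀ y ∈ V, 0 ≤ w' y := fun y hy =>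
      mul_nonneg (hw y hy) (E.riesz_pos hd0 hd hL' y).le
    have e1 : E.ft (fun y => w y * E.riesz d (a :: L) y) V k
        = E.ft w' V k + (d / 2 : ℂ) * a.2 * E.ft w' V (k + a.1)
          + (d / 2 : ℂ) * (starRingEnd ℂ) a.2 * E.ft w' V (k - a.1) := by
      unfold ft
      rw [mul_sum, mul_sum, ← sum_add_distrib, ← sum_add_distrib]
      refine sum_congr rfl fun y _ => ?_
      have hre : ((E.X a y : ℝ) : ℂ) = (a.2 * E.e a.1 y + (starRingEnd ℂ) (a.2 * E.e a.1 y)) / 2 :=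
        Complex.re_eq_add_conj (a.2 * E.e a.1 y)
      simp only [hw', riesz_cons, E.e_add, E.e_sub]
      push_cast
      rw [hre, map_mul]
      ring
    have hn2 : ‖(d / 2 : ℂ)‖ = d / 2 := by
      rw [show (d / 2 : ℂ) = ((d / 2 : ℝ) : ℂ) by push_cast; ring, Complex.norm_real,
        norm_of_nonneg (by linarith)]
    have e2 : ‖E.ft (fun y => w y * E.riesz d (a :: L) y) V k‖
        ≤ ‖E.ft w' V k‖ + d / 2 * ‖E.ft w' V (k + a.1)‖ + d / 2 * ‖E.ft w' V (k - a.1)‖ := by
      rw [e1]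
      refine (norm_add₃_le).trans ?_
      rw [norm_mul, norm_mul, norm_mul, norm_mul, hn2, Complex.norm_conj]
      have h1 : d / 2 * ‖a.2‖ * ‖E.ft w' V (k + a.1)‖ ≤ d / 2 * ‖E.ft w' V (k + a.1)‖ :=
        mul_le_mul_of_nonneg_right (by nlinarith) (norm_nonneg _)
      have h2 : d / 2 * ‖a.2‖ * ‖E.ft w' V (k - a.1)‖ ≤ d / 2 * ‖E.ft w' V (k - a.1)‖ :=
        mul_le_mul_of_nonneg_right (by nlinarith) (norm_nonneg _)
      linarith
    have e3 : (1 - d) * ms w' V ≤ ms (fun y => w y * E.riesz d (a :: L) y) V := by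
      unfold ms
      rw [mul_sum]
      refine sum_le_sum fun y hy => ?_
      rw [riesz_cons]
      have := (E.one_add_pos hd0 hd ha y).1
      have h0 := hw'0 y hy
      have : (1 - d) * w' y ≤ (1 + d * E.X a y) * w' y := mul_le_mul_of_nonneg_right this h0
      refine this.trans (le_of_eq ?_)
      rw [hw']; ring
    set c' := c * ((1 - d) / (1 + d)) with hc'
    have hc'0 : 0 ≤ c' := mul_nonneg hc (div_nonneg (by linarith) (by linarith))
    have hpow : c' * ((1 - d) / (1 + d)) ^ L.length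
        = c * ((1 - d) / (1 + d)) ^ (a :: L).length := by
      rw [List.length_cons, pow_succ, hc']; ring
    have hm : 0 ≤ ms w' V := ms_nonneg hw'0
    have hc'' : c' * (1 + d) = c * (1 - d) := by
      rw [hc']; field_simp
    -- one of the three must be large
    by_cases A : c' * ms w' V < ‖E.ft w' V k‖
    · obtain ⟨r, hr, hlt⟩ := exists_sp hd0 hd hw L hL' k c' hc'0 A
      exact ⟨r, Or.inl hr, by rw [← hpow]; exact hlt⟩
    by_cases B : c' * ms w' V < ‖E.ft w' V (k + a.1)‖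
    · obtain ⟨r, hr, hlt⟩ := exists_sp hd0 hd hw L hL' (k + a.1) c' hc'0 B
      refine ⟨r + a.1, Or.inr (Or.inl ?_), ?_⟩
      · rw [add_sub_cancel_right]; exact hr
      · rw [← hpow, show k + (r + a.1) = k + a.1 + r by abel]; exact hlt
    by_cases C : c' * ms w' V < ‖E.ft w' V (k - a.1)‖
    · obtain ⟨r, hr, hlt⟩ := exists_sp hd0 hd hw L hL' (k - a.1) c' hc'0 C
      refine ⟨r - a.1, Or.inr (Or.inr ?_), ?_⟩
      · rw [sub_add_cancel]; exact hr
      · rw [← hpow, show k + (r - a.1) = k - a.1 + r by abel]; exact hlt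
    exfalso
    push Not at A B C
    have h1 : ‖E.ft (fun y => w y * E.riesz d (a :: L) y) V k‖ ≤ (1 + d) * (c' * ms w' V) := by
      have hB := mul_le_mul_of_nonneg_left B (by linarith : (0:ℝ) ≤ d / 2)
      have hC := mul_le_mul_of_nonneg_left C (by linarith : (0:ℝ) ≤ d / 2)
      linarith
    have h2 : (1 + d) * (c' * ms w' V) = c * ((1 - d) * ms w' V) := by
      rw [← mul_assoc, mul_comm (1 + d) c', hc'']; ring
    have h3 := mul_le_mul_of_nonneg_left e3 hc
    linarith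

/-- `L` is complete at `V` for the letters in `S`: every `δ`-biased letter is `η`-visible for the
Riesz weight. -/
def Complete (d δ η : ℝ) (S : Set Γ) (μ ν : Y → ℝ) (V : Finset Y) (L : List (Γ × ℂ)) : Prop :=
  ∀ k ∈ S, δ * ms μ V ≤ ‖E.ft μ V k‖ →
    η * ms (fun y => ν y * E.riesz d L y) V < ‖E.ft (fun y => ν y * E.riesz d L y) V k‖

/-- one addition -/
theorem exists_add {d δ η : ℝ} {S : Set Γ} {μ ν : Y → ℝ} {V : Finset Y} {L : List (Γ × ℂ)}
    (hμ : ∀ y ∈ V, 0 ≤ μ y) (hν : ∀ y ∈ V, 0 < ν y) (hP : 0 < ms μ V) (hd0 : 0 ≤ d)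
    (hd : d ≤ 1 / 2) (hL : Ph L) (h : ¬ E.Complete d δ η S μ ν V L) :
    ∃ a : Γ × ℂ, a.1 ∈ S ∧ ‖a.2‖ ≤ 1 ∧
      KLm μ (fun y => ν y * E.riesz d (a :: L) y) V + ms μ V * (d * δ - 2 * d ^ 2 - d * η)
        ≤ KLm μ (fun y => ν y * E.riesz d L y) V := by
  unfold Complete at h
  push Not at h
  obtain ⟨k, hkS, hk1, hk2⟩ := h
  -- the phase
  obtain ⟨φ, hφ, hφ'⟩ : ∃ φ : ℂ, ‖φ‖ ≤ 1 ∧ φ * E.ft μ V k = (‖E.ft μ V k‖ : ℂ) := by
    by_cases h0 : E.ft μ V k = 0
    · exact ⟨1, by simp, by simp [h0]⟩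
    · refine ⟨(starRingEnd ℂ) (E.ft μ V k) / ‖E.ft μ V k‖, ?_, ?_⟩
      · rw [norm_div, Complex.norm_conj, Complex.norm_real, norm_norm, div_self]
        exact norm_ne_zero_iff.2 h0
      · rw [div_mul_eq_mul_div, mul_comm, Complex.mul_conj, Complex.normSq_eq_norm_sq]
        have : (‖E.ft μ V k‖ : ℂ) ≠ 0 := by
          exact_mod_cast norm_ne_zero_iff.2 h0
        push_cast
        field_simp
  refine ⟨(k, φ), hkS, hφ, ?_⟩
  have hX : ∀ w : Y → ℝ, ∑ y ∈ V, w y * E.X (k, φ) y = (φ * E.ft w V k).re := by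
    intro w
    unfold ft X
    rw [mul_sum, Complex.re_sum]
    refine sum_congr rfl fun y _ => ?_
    rw [show φ * ((w y : ℂ) * E.e k y) = (w y : ℂ) * (φ * E.e k y) by ring, Complex.re_ofReal_mul]
  have hw : ∀ y ∈ V, 0 < ν y * E.riesz d L y := fun y hy =>
    mul_pos (hν y hy) (E.riesz_pos hd0 hd hL y)
  have key := KLm_add (μ := μ) (w := fun y => ν y * E.riesz d L y) (V := V) (E.X (k, φ))
    (d := d) (δ := δ) (η := η) hμ hw hP (fun y _ => E.abs_X_le hφ y) hd0 hd
    (by rw [hX, hφ', Complex.ofReal_re]; exact hk1)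
    (by
      rw [hX]
      refine (Complex.re_le_norm _).trans ?_
      rw [norm_mul]
      refine (mul_le_of_le_one_left (norm_nonneg _) hφ).trans hk2)
  have e : (fun y => ν y * E.riesz d ((k, φ) :: L) y)
      = fun y => ν y * E.riesz d L y * (1 + d * E.X (k, φ) y) := by
    funext y; rw [riesz_cons]; ring
  rw [e]
  linarith

/-- **completion at a node** (c): every list has a complete extension, and each new letter
lowers the divergence by `γ μ(V)`. -/
theorem exists_complete {d δ η γ : ℝ} {S : Set Γ} {μ ν : Y → ℝ} {V : Finset Y}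
    (hμ : ∀ y ∈ V, 0 ≤ μ y) (hν : ∀ y ∈ V, 0 < ν y) (hP : 0 < ms μ V) (hd0 : 0 ≤ d)
    (hd : d ≤ 1 / 2) (hγ : 0 < γ) (hγ' : γ ≤ d * δ - 2 * d ^ 2 - d * η)
    (L : List (Γ × ℂ)) (hL : Ph L) :
    ∃ N : List (Γ × ℂ), Ph N ∧ (∀ a ∈ N, a.1 ∈ S) ∧ E.Complete d δ η S μ ν V (N ++ L) ∧
      KLm μ (fun y => ν y * E.riesz d (N ++ L) y) V + ms μ V * (γ * N.length)
        ≤ KLm μ (fun y => ν y * E.riesz d L y) V := by
  have main : ∀ n : ℕ, ∀ L : List (Γ × ℂ), Ph L →
      KLm μ (fun y => ν y * E.riesz d L y) V < ms μ V * (γ * n) →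
      ∃ N : List (Γ × ℂ), Ph N ∧ (∀ a ∈ N, a.1 ∈ S) ∧ E.Complete d δ η S μ ν V (N ++ L) ∧
      KLm μ (fun y => ν y * E.riesz d (N ++ L) y) V + ms μ V * (γ * N.length)
        ≤ KLm μ (fun y => ν y * E.riesz d L y) V := by
    intro n
    induction n with
    | zero =>
      intro L hL h
      have := KLm_nonneg (μ := μ) (w := fun y => ν y * E.riesz d L y) (V := V) hμ
        (fun y hy => mul_pos (hν y hy) (E.riesz_pos hd0 hd hL y))
      simp at h
      linarith
    | succ n ih =>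
      intro L hL h
      by_cases hc : E.Complete d δ η S μ ν V L
      · exact ⟨[], fun a ha => by simp at ha, fun a ha => by simp at ha, hc, by simp⟩
      · obtain ⟨a, haS, ha, hle⟩ := E.exists_add hμ hν hP hd0 hd hL hc
        have hL' : Ph (a :: L) := by
          intro b hb
          rcases List.mem_cons.1 hb with rfl | hb
          · exact ha
          · exact hL b hb
        have hγm := mul_le_mul_of_nonneg_left hγ' hP.le
        obtain ⟨N, hN, hNS, hNc, hNle⟩ := ih (a :: L) hL' (by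
          push_cast at h
          nlinarith)
        refine ⟨N ++ [a], ?_, ?_, ?_, ?_⟩
        · intro b hb
          rcases List.mem_append.1 hb with hb | hb
          · exact hN b hb
          · rw [List.mem_singleton.1 hb]; exact ha
        · intro b hb
          rcases List.mem_append.1 hb with hb | hb
          · exact hNS b hb
          · rw [List.mem_singleton.1 hb]; exact haS
        · rw [List.append_assoc]; exact hNc
        · rw [List.append_assoc, List.length_append]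
          simp only [List.singleton_append, List.length_singleton, Nat.cast_add, Nat.cast_one]
          nlinarith
  obtain ⟨n, hn⟩ := exists_nat_gt (KLm μ (fun y => ν y * E.riesz d L y) V / (ms μ V * γ))
  refine main n L hL ?_
  rw [div_lt_iff₀ (mul_pos hP hγ)] at hn
  nlinarith

end Chr

end Vale.Agent.P091.T8.H655
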