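import Mathlib

/-!
# P091, row T8, parts (c)+(d) (helper655)

Riesz potential.  `KLm μ w V` is `μ(V)` times the divergence of `μ` restricted to `V` from
`w` restricted to `V` (both normalised).
-/

set_option autoImplicit false

open Finset Real

noncomputable section

namespace Vale.Agent.P091.T8.H655

section KL
variable {Y : Type*}

/-- mass of `μ` on `V` -/
def ms (μ : Y → ℝ) (V : Finset Y) : ℝ := ∑ y ∈ V, μ y

/-- `μ(V)` times the divergence of `μ|V` from `w|V` (normalised). -/
def KLm (μ w : Y → ℝ) (V : Finset Y) : ℝ :=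
  ∑ y ∈ V, μ y * log (μ y / w y) + ms μ V * log (ms w V / ms μ V)

theorem ms_nonneg {μ : Y → ℝ} {V : Finset Y} (h : ∀ y ∈ V, 0 ≤ μ y) : 0 ≤ ms μ V :=
  sum_nonneg h

theorem eq_zero_of_ms {μ : Y → ℝ} {V : Finset Y} (h : ∀ y ∈ V, 0 ≤ μ y) (h0 : ms μ V = 0) :
    ∀ y ∈ V, μ y = 0 := (sum_eq_zero_iff_of_nonneg h).1 h0

theorem ms_pos {w : Y → ℝ} {V : Finset Y} (hw : ∀ y ∈ V, 0 < w y) (hV : V.Nonempty) :
    0 < ms w V := sum_pos hw hV

theorem KLm_of_ms_zero {μ w : Y → ℝ} {V : Finset Y} (h : ∀ y ∈ V, 0 ≤ μ y) (h0 : ms μ V = 0) :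
    KLm μ w V = 0 := by
  unfold KLm
  rw [h0, zero_mul, add_zero]
  exact sum_eq_zero fun y hy => by rw [eq_zero_of_ms h h0 y hy, zero_mul]

/-- Gibbs' inequality -/
theorem KLm_nonneg {μ w : Y → ℝ} {V : Finset Y} (hμ : ∀ y ∈ V, 0 ≤ μ y)
    (hw : ∀ y ∈ V, 0 < w y) : 0 ≤ KLm μ w V := by
  rcases (ms_nonneg hμ).eq_or_lt with h0 | hP
  · rw [KLm_of_ms_zero hμ h0.symm]
  have hV : V.Nonempty := by
    rcases V.eq_empty_or_nonempty with h | h
    · subst h; simp [ms] at hP
    · exact h
  have hW : 0 < ms w V := ms_pos hw hV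
  have key : ∀ y ∈ V, μ y - w y * ms μ V / ms w V
      ≤ μ y * log (μ y / w y) + μ y * log (ms w V / ms μ V) := by
    intro y hy
    rcases (hμ y hy).eq_or_lt with h | h
    · rw [← h]
      have : 0 ≤ w y * ms μ V / ms w V := by
        have := hw y hy; positivity
      simp; linarith
    · have hwy := hw y hy
      have h1 := log_le_sub_one_of_pos (x := w y * ms μ V / (μ y * ms w V)) (by positivity)
      have h2 : log (w y * ms μ V / (μ y * ms w V))
          = - (log (μ y / w y) + log (ms w V / ms μ V)) := by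
        rw [log_div (by positivity) (by positivity), log_mul (by positivity) (by positivity),
          log_mul (by positivity) (by positivity), log_div (by positivity) (by positivity),
          log_div (by positivity) (by positivity)]
        ring
      rw [h2] at h1
      have h3 := mul_le_mul_of_nonneg_left h1 h.le
      have h4 : μ y * (w y * ms μ V / (μ y * ms w V) - 1) = w y * ms μ V / ms w V - μ y := by
        field_simp
      rw [h4] at h3
      linarith
  have := sum_le_sum key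
  rw [sum_sub_distrib, sum_add_distrib, ← sum_mul, ← sum_div, ← sum_mul] at this
  have e : ∑ y ∈ V, μ y - (∑ y ∈ V, w y) * ms μ V / ms w V = 0 := by
    change ms μ V - ms w V * ms μ V / ms w V = 0
    field_simp
    ring
  rw [e] at this
  exact this

/-- chain rule for a partition into fibres -/
theorem KLm_fiber {ι : Type*} [DecidableEq ι] (μ w : Y → ℝ) (V : Finset Y) (f : Y → ι) :
    KLm μ w V = ∑ i ∈ V.image f, KLm μ w (V.filter fun y => f y = i)
      + KLm (fun i => ms μ (V.filter fun y => f y = i))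
          (fun i => ms w (V.filter fun y => f y = i)) (V.image f) := by
  classical
  unfold KLm
  rw [sum_add_distrib]
  have h1 : ∀ g : Y → ℝ, ∑ i ∈ V.image f, ∑ y ∈ V.filter (fun y => f y = i), g y
      = ∑ y ∈ V, g y := fun g => by
    rw [sum_image' (h := g) (g := f) (f := fun i => ∑ y ∈ V.filter (fun y => f y = i), g y)]
    intro i hi
    rfl
  have h2 : ∀ m : Y → ℝ, ms (fun i => ms m (V.filter fun y => f y = i)) (V.image f) = ms m V := by
    intro m
    exact h1 m
  rw [h1, h2, h2]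
  have h3 : ∀ i ∈ V.image f, ms μ (V.filter fun y => f y = i) *
      log (ms w (V.filter fun y => f y = i) / ms μ (V.filter fun y => f y = i))
      = - (ms μ (V.filter fun y => f y = i) *
      log (ms μ (V.filter fun y => f y = i) / ms w (V.filter fun y => f y = i))) := by
    intro i _
    rw [← inv_div, log_inv]; ring
  rw [sum_congr rfl h3, sum_neg_distrib]
  ring

theorem KLm_fiber_le {ι : Type*} [DecidableEq ι] {μ w : Y → ℝ} {V : Finset Y} (f : Y → ι)
    (hμ : ∀ y ∈ V, 0 ≤ μ y) (hw : ∀ y ∈ V, 0 < w y) :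
    ∑ i ∈ V.image f, KLm μ w (V.filter fun y => f y = i) ≤ KLm μ w V := by
  classical
  rw [KLm_fiber μ w V f]
  have : 0 ≤ KLm (fun i => ms μ (V.filter fun y => f y = i))
          (fun i => ms w (V.filter fun y => f y = i)) (V.image f) := by
    apply KLm_nonneg
    · intro i _
      exact ms_nonneg fun y hy => hμ y (mem_filter.1 hy).1
    · intro i hi
      apply ms_pos
      · intro y hy; exact hw y (mem_filter.1 hy).1
      · obtain ⟨y, hy, rfl⟩ := mem_image.1 hi
        exact ⟨y, mem_filter.2 ⟨hy, rfl⟩⟩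
  linarith

/-- tilting the reference measure -/
theorem KLm_tilt {μ w : Y → ℝ} {V : Finset Y} (q : Y → ℝ)
    (hw : ∀ y ∈ V, 0 < w y) (hq : ∀ y ∈ V, 0 < q y) (hP : 0 < ms μ V) :
    KLm μ (fun y => w y * q y) V = KLm μ w V - ∑ y ∈ V, μ y * log (q y)
      + ms μ V * log (ms (fun y => w y * q y) V / ms w V) := by
  have hV : V.Nonempty := by
    rcases V.eq_empty_or_nonempty with h | h
    · subst h; simp [ms] at hP
    · exact h
  have hW : 0 < ms w V := ms_pos hw hV
  have hW' : 0 < ms (fun y => w y * q y) V := ms_pos (fun y hy => mul_pos (hw y hy) (hq y hy)) hV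
  unfold KLm
  have h1 : ∀ y ∈ V, μ y * log (μ y / (w y * q y)) = μ y * log (μ y / w y) - μ y * log (q y) := by
    intro y hy
    by_cases h : μ y = 0
    · simp [h]
    · have a := (hw y hy).ne'
      have b := (hq y hy).ne'
      rw [log_div h (mul_ne_zero a b), log_mul a b, log_div h a]; ring
  rw [sum_congr rfl h1, sum_sub_distrib, log_div hW'.ne' hP.ne', log_div hW'.ne' hW.ne',
    log_div hW.ne' hP.ne']
  ring

theorem log_one_add_ge {t : ℝ} (h1 : -(1/2) ≤ t) (h2 : t ≤ 1/2) :
    t - 2 * t ^ 2 ≤ log (1 + t) := by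
  have ha : |(-t)| ≤ 1 / 2 := by rw [abs_neg]; exact abs_le.2 ⟨by linarith, h2⟩
  have h := abs_log_sub_add_sum_range_le (x := -t) (by linarith) 1
  simp only [range_one, sum_singleton, zero_add, pow_one, Nat.cast_zero, div_one,
    sub_neg_eq_add] at h
  have h3 := (abs_le.1 h).1
  have h4 : |(-t)| ^ (1 + 1) / (1 - |(-t)|) ≤ 2 * t ^ 2 := by
    rw [div_le_iff₀ (by linarith)]
    have : |(-t)| ^ (1 + 1) = t ^ 2 := by rw [abs_neg]; exact sq_abs t
    rw [this]
    nlinarith [sq_nonneg t]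
  linarith

/-- **growth**: one addition. `X` has `μ`-mean `≥ δ` and `w`-mean `≤ η`. -/
theorem KLm_add {μ w : Y → ℝ} {V : Finset Y} (X : Y → ℝ) {d δ η : ℝ}
    (hμ : ∀ y ∈ V, 0 ≤ μ y) (hw : ∀ y ∈ V, 0 < w y) (hP : 0 < ms μ V)
    (hX : ∀ y ∈ V, |X y| ≤ 1) (hd0 : 0 ≤ d) (hd : d ≤ 1 / 2)
    (h1 : δ * ms μ V ≤ ∑ y ∈ V, μ y * X y) (h2 : ∑ y ∈ V, w y * X y ≤ η * ms w V) :
    KLm μ (fun y => w y * (1 + d * X y)) V
      ≤ KLm μ w V - ms μ V * (d * δ - 2 * d ^ 2 - d * η) := by
  have hV : V.Nonempty := by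
    rcases V.eq_empty_or_nonempty with h | h
    · subst h; simp [ms] at hP
    · exact h
  have hW : 0 < ms w V := ms_pos hw hV
  have hdX : ∀ y ∈ V, -(1/2) ≤ d * X y ∧ d * X y ≤ 1/2 := by
    intro y hy
    have := abs_le.1 (hX y hy)
    constructor <;> nlinarith
  have hq : ∀ y ∈ V, 0 < 1 + d * X y := fun y hy => by
    have := (hdX y hy).1; linarith
  rw [KLm_tilt (fun y => 1 + d * X y) hw hq hP]
  have hA : d * δ * ms μ V - 2 * d ^ 2 * ms μ V ≤ ∑ y ∈ V, μ y * log (1 + d * X y) := by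
    have : ∀ y ∈ V, d * (μ y * X y) - 2 * d ^ 2 * μ y ≤ μ y * log (1 + d * X y) := by
      intro y hy
      have a := log_one_add_ge (hdX y hy).1 (hdX y hy).2
      have b := mul_le_mul_of_nonneg_left a (hμ y hy)
      have c : (X y) ^ 2 ≤ 1 := by
        have := abs_le.1 (hX y hy); nlinarith
      have c' : μ y * (d ^ 2 * (X y) ^ 2) ≤ μ y * (d ^ 2 * 1) :=
        mul_le_mul_of_nonneg_left (mul_le_mul_of_nonneg_left c (sq_nonneg d)) (hμ y hy)
      nlinarith
    have s := sum_le_sum this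
    rw [sum_sub_distrib, ← mul_sum, ← mul_sum] at s
    have : d * (δ * ms μ V) ≤ d * ∑ y ∈ V, μ y * X y := mul_le_mul_of_nonneg_left h1 hd0
    change d * ∑ y ∈ V, μ y * X y - 2 * d ^ 2 * ms μ V ≤ _ at s
    linarith
  have hB : log (ms (fun y => w y * (1 + d * X y)) V / ms w V) ≤ d * η := by
    have e : ms (fun y => w y * (1 + d * X y)) V = ms w V + d * ∑ y ∈ V, w y * X y := by
      unfold ms
      rw [mul_sum, ← sum_add_distrib]
      exact sum_congr rfl fun y _ => by ring
    have hpos : 0 < ms (fun y => w y * (1 + d * X y)) V :=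
      ms_pos (fun y hy => mul_pos (hw y hy) (hq y hy)) hV
    have := log_le_sub_one_of_pos (div_pos hpos hW)
    refine this.trans ?_
    rw [e, add_div, div_self hW.ne']
    have : d * (∑ y ∈ V, w y * X y) / ms w V ≤ d * η := by
      rw [div_le_iff₀ hW]
      have := mul_le_mul_of_nonneg_left h2 hd0
      linarith
    linarith
  have hB' := mul_le_mul_of_nonneg_left hB hP.le
  nlinarith

end KL

end Vale.Agent.P091.T8.H655
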